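import Vale.Agent.P263.HS.Rel
import Vale.Agent.P263.GC.Rk

/-!
# P263, block HS (helper310): `H^j(M(n+1), M(n)) = 0` for `2 j ≤ n`, coefficients `F₂`

`relAc_sN` is the input of `GC/RangeRel.lean`.
-/

namespace Vale.Agent.P263.HS

open Vale.Agent.P263.S Vale.Agent.P263.E Vale.Agent.P263.G Vale.Agent.P263.GC

theorem dL_eq_sum {A : Type} (ψ : List A → F2) (l : List A) :
    dL ψ l = ∑ i ∈ Finset.range l.length, ψ (l.eraseIdx i) := by
  induction l generalizing ψ with
  | nil => simp
  | cons x w ih =>
    rw [dL_cons, ih, List.length_cons, Finset.sum_range_succ', add_comm]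
    rfl

theorem eraseIdx_ofFn {A : Type} {q : ℕ} (x : Fin (q + 2) → A) {i : ℕ} (hi : i < q + 2) :
    (List.ofFn x).eraseIdx i = List.ofFn fun j => x (dl q i j) := by
  apply List.ext_getElem
  · rw [List.length_eraseIdx_of_lt (by rw [List.length_ofFn]; exact hi), List.length_ofFn,
      List.length_ofFn]
    rfl
  · intro n h1 h2
    rw [List.getElem_eraseIdx]
    simp only [List.getElem_ofFn]
    split_ifs with h
    · congr 1
      apply Fin.ext
      rw [dl_val]
      simp [h]
    · congr 1
      apply Fin.ext
      rw [dl_val]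
      simp [h]

theorem sn_two (i : ℕ) (x : F2) : sn i x = x := by
  unfold sn
  rcases Nat.even_or_odd i with h | h
  · rw [h.neg_one_pow, one_smul]
  · rw [h.neg_one_pow, neg_smul, one_smul]
    exact CharTwo.neg_eq x

theorem dL_ofFn {N q : ℕ} (u : List (Equiv.Perm (Fin N)) → F2) (e : EP N (q + 1)) :
    dL u (List.ofFn e) = dE (fun x : EP N q => u (List.ofFn x)) e := by
  rw [dL_eq_sum, List.length_ofFn]
  unfold dE
  refine Finset.sum_congr rfl fun i hi => ?_
  rw [sn_two, eraseIdx_ofFn e (Finset.mem_range.1 hi)]

/-- **Homological stability of the symmetric groups modulo `2`**, in the model `MN`. -/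
theorem relAc_sN {n j : ℕ} (hj : 2 * j ≤ n) : RelAc (ZMod 2) (sN n) j := by
  classical
  cases j with
  | zero => exact relAc_sN_zero n
  | succ q =>
    apply relAc_sN_succ'
    intro F hF hd h0
    let f : List (Equiv.Perm (Fin (n + 1))) → F2 := fun l =>
      if h : l.length = q + 2 then F (fun i => l.get (i.cast h.symm)) else 0
    have hf : ∀ e : EP (n + 1) (q + 1), f (List.ofFn e) = F e := by
      intro e
      have h : (List.ofFn e).length = q + 2 := List.length_ofFn
      show dite _ _ _ = _
      rw [dif_pos h]
      congr 1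
      funext i
      rw [List.get_ofFn]
      rfl
    have hl : ∀ {m : ℕ} (l : List (Equiv.Perm (Fin (n + 1)))), l.length = m →
        ∃ e : Fin m → Equiv.Perm (Fin (n + 1)), List.ofFn e = l := by
      rintro m l rfl
      exact ⟨l.get, List.ofFn_get l⟩
    have hmap : ∀ {m : ℕ} (g : Equiv.Perm (Fin (n + 1)))
        (e : Fin m → Equiv.Perm (Fin (n + 1))),
        (List.ofFn e).map (g * ·) = List.ofFn fun i => g * e i := by
      intro m g e
      rw [List.map_ofFn]
      rfl
    obtain ⟨u, hu, hu0, huK, hud⟩ := rel_stab (G := Equiv.Perm (Fin (n + 1)))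
      (A := Fin (n + 1)) (q := q + 1) (by
        constructor
        · intro a b h
          apply Equiv.ext
          intro x
          exact congrArg (fun e : Equiv.Perm (Fin (n + 1)) => e x) h
        · intro σ
          exact ⟨σ, Equiv.ext fun x => rfl⟩) 0 (by rw [Fintype.card_fin]; omega) f (by
        intro g l
        by_cases h : l.length = q + 2
        · obtain ⟨e, rfl⟩ := hl l h
          rw [hmap, hf, hf, hF]
        · show dite _ _ _ = dite _ _ _
          rw [dif_neg h, dif_neg (by rwa [List.length_map])]) (by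
        intro l h
        obtain ⟨e, rfl⟩ := hl l h
        rw [dL_ofFn, ← hd e]
        congr 1
        funext x
        exact hf x) (by
        intro l h hs
        obtain ⟨e, rfl⟩ := hl l h
        rw [hf]
        exact h0 e fun i => hs _ (List.mem_ofFn.2 ⟨i, rfl⟩))
    refine ⟨fun e => u (List.ofFn e), fun g e => ?_, fun e he => ?_, fun e => ?_⟩
    · show u (List.ofFn fun i => g * e i) = u (List.ofFn e)
      rw [← hmap, hu]
    · refine huK _ List.length_ofFn fun s hs => ?_
      obtain ⟨i, rfl⟩ := List.mem_ofFn.1 hs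
      exact he i
    · rw [← dL_ofFn, ← hud _ List.length_ofFn, hf]

/-- the injectivity form -/
theorem injective_mapH_sN {n j : ℕ} (hj : 2 * j ≤ n) :
    Function.Injective (((sN n).pull (R := ZMod 2)).mapH j) := by
  have hs : (sN n).Inj := by
    intro p F G h
    have h1 := congrArg (iN (n + 1)).app h
    rw [iN_sN, iN_sN] at h1
    exact iN_inj n p h1
  exact (injH_iff _ _).1 ((relAc_sN hj).injH hs)

end Vale.Agent.P263.HS
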