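import Vale.Agent.P263.HS.List

/-!
# P263, block HS (helper310): the double complex of injective words

`G` is a group acting on `A`; cochains are functions `f : List G → List A → F₂`, equivariant for
the diagonal action; `dv` is the group coboundary, `dh` the coboundary of the complex of words.
-/

namespace Vale.Agent.P263.HS

universe u v

section Eqv
variable {G : Type u} [Group G] {A : Type v} [MulAction G A]

/-- Equivariant functions. -/
def Eqv (f : List G → List A → F2) : Prop :=
  ∀ (g : G) (l : List G) (w : List A), f (l.map (g * ·)) (w.map (g • ·)) = f l w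

/-- Group coboundary. -/
def dv (f : List G → List A → F2) : List G → List A → F2 := fun l w => dL (fun l' => f l' w) l

/-- Word coboundary. -/
def dh (f : List G → List A → F2) : List G → List A → F2 := fun l w => dL (fun w' => f l w') w

/-- Injective words of length `p`. -/
def Good (p : ℕ) (w : List A) : Prop := w.Nodup ∧ w.length = p

omit [Group G] [MulAction G A] in
theorem dv_dh (f : List G → List A → F2) : dv (dh f) = dh (dv f) := by
  funext l w
  exact dL_comm f l w

theorem Eqv.add {f f' : List G → List A → F2} (h : Eqv f) (h' : Eqv f') :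
    Eqv (fun l w => f l w + f' l w) := fun g l w => by
  show f _ _ + f' _ _ = _
  rw [h g l w, h' g l w]

theorem Eqv.zero : Eqv (fun (_ : List G) (_ : List A) => (0 : F2)) := fun _ _ _ => rfl

theorem Eqv.dv {f : List G → List A → F2} (h : Eqv f) : Eqv (dv f) := fun g l w => by
  show dL _ (l.map (g * ·)) = dL _ _
  rw [dL_map]
  congr 1
  funext l'
  exact h g l' w

theorem Eqv.dh {f : List G → List A → F2} (h : Eqv f) : Eqv (dh f) := fun g l w => by
  show dL _ (w.map (g • ·)) = dL _ _
  rw [dL_map]
  congr 1
  funext l'
  exact h g l l'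

omit [Group G] [MulAction G A] in
theorem dv_add (f f' : List G → List A → F2) (l : List G) (w : List A) :
    HS.dv (fun l w => f l w + f' l w) l w = HS.dv f l w + HS.dv f' l w := dL_add _ _ _

omit [Group G] [MulAction G A] in
theorem dh_add (f f' : List G → List A → F2) (l : List G) (w : List A) :
    HS.dh (fun l w => f l w + f' l w) l w = HS.dh f l w + HS.dh f' l w := dL_add _ _ _

omit [Group G] [MulAction G A] in
theorem dv_dv (f : List G → List A → F2) (l : List G) (w : List A) :
    HS.dv (HS.dv f) l w = 0 := dL_dL _ _

omit [Group G] [MulAction G A] in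
theorem dh_dh (f : List G → List A → F2) (l : List G) (w : List A) :
    HS.dh (HS.dh f) l w = 0 := dL_dL _ _

omit [MulAction G A] [Group G] in
theorem Good.sub {p q : ℕ} {w v : List A} (hw : Good p w) (hs : v.Sublist w)
    (hq : v.length = q) : Good q v := ⟨hw.1.sublist hs, hq⟩

omit [MulAction G A] [Group G] in
theorem dh_congr {f f' : List G → List A → F2} {p : ℕ} {l : List G} {w : List A}
    (hw : Good (p + 1) w) (h : ∀ w', Good p w' → f l w' = f' l w') :
    HS.dh f l w = HS.dh f' l w :=
  dL_congr fun v hv hs => h v (hw.sub hs (by have := hw.2; omega))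

omit [MulAction G A] [Group G] in
theorem dv_congr {f f' : List G → List A → F2} {L : ℕ} {l : List G} {w : List A}
    (hl : l.length = L + 1) (h : ∀ l', l'.length = L → f l' w = f' l' w) :
    HS.dv f l w = HS.dv f' l w :=
  dL_congr fun v hv _ => h v (by omega)

theorem Good.map {p : ℕ} {w : List A} (hw : Good p w) (g : G) : Good p (w.map (g • ·)) :=
  ⟨hw.1.map (MulAction.injective g), by rw [List.length_map]; exact hw.2⟩

theorem Good.of_map {p : ℕ} {w : List A} {g : G} (hw : Good p (w.map (g • ·))) : Good p w :=
  ⟨List.Nodup.of_map _ hw.1, by have := hw.2; rwa [List.length_map] at this⟩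

/-- Group cocycle at words of length `p`, evaluated on lists of length `L`. -/
def CocV (p L : ℕ) (f : List G → List A → F2) : Prop :=
  ∀ l w, l.length = L + 1 → Good p w → HS.dv f l w = 0

/-- Group coboundary at words of length `p`, evaluated on lists of length `L`. -/
def CobV (p L : ℕ) (f : List G → List A → F2) : Prop :=
  ∃ h : List G → List A → F2, Eqv h ∧ (∀ w, h [] w = 0) ∧
    ∀ l w, l.length = L → Good p w → f l w = HS.dv h l w

/-- Exactness of the rows. -/
theorem row_exact [DecidableEq A] [Fintype A] {p L : ℕ} (hp : p < Fintype.card A) (hL : 1 ≤ L)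
    {f : List G → List A → F2} (hf : Eqv f)
    (h : ∀ l w, l.length = L → Good (p + 1) w → HS.dh f l w = 0) :
    ∃ h0 : List G → List A → F2, Eqv h0 ∧ (∀ w, h0 [] w = 0) ∧
      ∀ l w, l.length = L → Good p w → f l w = HS.dh h0 l w := by
  have key : ∀ l : List G, ∃ ψ : List A → F2, l.length = L →
      ∀ w, Good p w → f l w = dL ψ w := by
    intro l
    by_cases hl : l.length = L
    · obtain ⟨ψ, hψ⟩ := exact_words _ (Finset.univ : Finset A) rfl p (by simpa using hp)
        (fun w => f l w) (fun w hw => h l w hl ⟨hw.1, hw.2.2⟩)
      exact ⟨ψ, fun _ w hw => hψ w ⟨hw.1, fun x _ => Finset.mem_univ x, hw.2⟩⟩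
    · exact ⟨0, fun h => absurd h hl⟩
  choose Ψ hΨ using key
  refine ⟨fun l w => match l with
    | [] => 0
    | s :: t => Ψ ((s :: t).map (s⁻¹ * ·)) (w.map (s⁻¹ • ·)), ?_, fun _ => rfl, ?_⟩
  · intro g l w
    match l with
    | [] => rfl
    | s :: t =>
      show Ψ (((g * s) :: t.map (g * ·)).map ((g * s)⁻¹ * ·)) ((w.map (g • ·)).map ((g * s)⁻¹ • ·))
        = Ψ ((s :: t).map (s⁻¹ * ·)) (w.map (s⁻¹ • ·))
      congr 1
      · simp only [List.map_cons, List.map_map]
        congr 1
        · group
        · apply List.map_congr_left
          intro x _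
          simp only [Function.comp]
          group
      · rw [List.map_map]
        apply List.map_congr_left
        intro x _
        simp only [Function.comp, mul_inv_rev, mul_smul, inv_smul_smul]
  · intro l w hl hw
    match l with
    | [] => simp at hl; omega
    | s :: t =>
      have e1 : f (s :: t) w = f ((s :: t).map (s⁻¹ * ·)) (w.map (s⁻¹ • ·)) := (hf s⁻¹ _ _).symm
      rw [e1, hΨ _ (by rw [List.length_map]; exact hl) _ (hw.map _), dL_map]
      rfl

end Eqv

section Pair
variable {G : Type u} [Group G] {A : Type v} [DecidableEq A] [MulAction G A]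

/-- The element of `G` acting as the transposition of `x` and `y`. -/
noncomputable def sw (hb : Function.Bijective (MulAction.toPerm : G → Equiv.Perm A)) (x y : A) :
    G := (hb.2 (Equiv.swap x y)).choose

variable (hb : Function.Bijective (MulAction.toPerm : G → Equiv.Perm A))

theorem sw_smul (x y z : A) : sw hb x y • z = Equiv.swap x y z := by
  have := (hb.2 (Equiv.swap x y)).choose_spec
  exact congrArg (fun e : Equiv.Perm A => e z) this

theorem sw_conj (g : G) (x y : A) : g * sw hb x y = sw hb (g • x) (g • y) * g := by
  apply hb.1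
  apply Equiv.ext
  intro z
  show (g * sw hb x y) • z = (sw hb (g • x) (g • y) * g) • z
  rw [mul_smul, mul_smul, sw_smul, sw_smul]
  simp only [Equiv.swap_apply_def, smul_left_cancel_iff]
  split_ifs <;> rfl

/-- The homotopy which cancels the faces in pairs. -/
noncomputable def pairK (c : List G → List A → F2) : List A → List A → List G → F2
  | _, [], _ => 0
  | _, [_], _ => 0
  | u, x :: y :: t, l => prism (fun s => (sw hb x y)⁻¹ * s) (fun l => c l (u ++ y :: t)) l +
      pairK c (u ++ [x, y]) t l

theorem pairK_nil (c : List G → List A → F2) (u : List A) (l : List G) :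
    pairK hb c u [] l = 0 := by rw [pairK]

theorem pairK_one (c : List G → List A → F2) (u : List A) (x : A) (l : List G) :
    pairK hb c u [x] l = 0 := by rw [pairK]

theorem pairK_cons (c : List G → List A → F2) (u : List A) (x y : A) (t : List A) (l : List G) :
    pairK hb c u (x :: y :: t) l = prism (fun s => (sw hb x y)⁻¹ * s)
      (fun l => c l (u ++ y :: t)) l + pairK hb c (u ++ [x, y]) t l := by rw [pairK]

theorem pairK_empty (c : List G → List A → F2) : ∀ (u w : List A), pairK hb c u w [] = 0
  | u, [] => pairK_nil hb c u []
  | u, [x] => pairK_one hb c u x []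
  | u, x :: y :: t => by rw [pairK_cons, pairK_empty c _ t, prism_nil, add_zero]

theorem pairK_map (c : List G → List A → F2) (hc : Eqv c) (g : G) (l : List G) :
    ∀ (u w : List A), pairK hb c (u.map (g • ·)) (w.map (g • ·)) (l.map (g * ·)) =
      pairK hb c u w l
  | u, [] => by rw [List.map_nil, pairK_nil, pairK_nil]
  | u, [x] => by rw [List.map_cons, List.map_nil, pairK_one, pairK_one]
  | u, x :: y :: t => by
    rw [List.map_cons, List.map_cons, pairK_cons, pairK_cons]
    have h1 := pairK_map c hc g l (u ++ [x, y]) t
    rw [List.map_append, List.map_cons, List.map_cons, List.map_nil] at h1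
    rw [h1]
    congr 1
    rw [prism_map (g * ·) (fun s => (sw hb x y)⁻¹ * s)]
    · apply prism_congr
      intro v _
      have := hc g v (u ++ y :: t)
      rw [List.map_append, List.map_cons] at this
      exact this
    · intro s
      have := sw_conj hb g x y
      have h2 : (sw hb (g • x) (g • y))⁻¹ * g = g * (sw hb x y)⁻¹ := by
        rw [inv_mul_eq_iff_eq_mul, ← mul_assoc, ← this, mul_assoc, mul_inv_cancel, mul_one]
      rw [← mul_assoc, h2, mul_assoc]

theorem pairK_eq {p L : ℕ} {c : List G → List A → F2} (hc : Eqv c) (hcoc : CocV p L c)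
    (l : List G) (hl : l.length = L) :
    ∀ (u w : List A), Even w.length → Good (p + 1) (u ++ w) →
      dL (fun w' => c l (u ++ w')) w = dL (fun l' => pairK hb c u w l') l
  | u, [], _, _ => by simp [pairK_nil]
  | u, [x], h, _ => by simp at h
  | u, x :: y :: t, h, hg => by
    have hnd := List.nodup_append.1 hg.1
    have hnd2 := List.nodup_cons.1 hnd.2.1
    have hnd3 := List.nodup_cons.1 hnd2.2
    have hxy : x ≠ y := fun h => hnd2.1 (h ▸ List.mem_cons_self)
    have ih := pairK_eq hc hcoc l hl (u ++ [x, y]) t
      (by simpa [Nat.even_add_one] using h) (by simpa using hg)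
    have e1 : dL (fun w' => c l (u ++ w')) (x :: y :: t) = c l (u ++ y :: t) +
        (c l (u ++ x :: t) + dL (fun w' => c l (u ++ [x, y] ++ w')) t) := by
      rw [dL_cons, dL_cons]
      congr 2
      · simp
    rw [e1, ih]
    have e2 : (fun l' => pairK hb c u (x :: y :: t) l') = fun l' =>
        prism (fun s => (sw hb x y)⁻¹ * s) (fun l => c l (u ++ y :: t)) l' +
        pairK hb c (u ++ [x, y]) t l' := by
      funext l'; rw [pairK_cons]
    rw [e2, dL_add]
    have e3 := prism_eq (fun s => (sw hb x y)⁻¹ * s) (fun l => c l (u ++ y :: t)) l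
    have hgy : Good p (u ++ y :: t) := hg.sub
      (List.Sublist.append (List.Sublist.refl u) (List.sublist_cons_self x _))
      (by have := hg.2; simp only [List.length_append, List.length_cons] at this ⊢; omega)
    have e4 : prism (fun s => (sw hb x y)⁻¹ * s) (dL fun l => c l (u ++ y :: t)) l = 0 := by
      rw [← prism_zero (fun s => (sw hb x y)⁻¹ * s) l]
      exact prism_congr _ fun v hv => hcoc v _ (by rw [hv, hl]) hgy
    rw [e4, add_zero] at e3
    have e5 : c (l.map fun s => (sw hb x y)⁻¹ * s) (u ++ y :: t) = c l (u ++ x :: t) := by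
      rw [← hc (sw hb x y)]
      congr 1
      · rw [List.map_map]
        conv_rhs => rw [← List.map_id l]
        apply List.map_congr_left
        intro s _
        simp
      · rw [List.map_append, List.map_cons, sw_smul, Equiv.swap_apply_right]
        have hu : ∀ z ∈ u, sw hb x y • z = z := fun z hz => by
          rw [sw_smul]
          exact Equiv.swap_apply_of_ne_of_ne (hnd.2.2 z hz x (by simp)) (hnd.2.2 z hz y (by simp))
        have ht : ∀ z ∈ t, sw hb x y • z = z := fun z hz => by
          rw [sw_smul]
          refine Equiv.swap_apply_of_ne_of_ne ?_ ?_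
          · rintro rfl; exact hnd2.1 (List.mem_cons_of_mem _ hz)
          · rintro rfl; exact hnd3.1 hz
        congr 1
        · conv_rhs => rw [← List.map_id u]
          exact List.map_congr_left fun z hz => hu z hz
        · congr 1
          conv_rhs => rw [← List.map_id t]
          exact List.map_congr_left fun z hz => ht z hz
    rw [e3, e5]
    ring

include hb in
/-- For odd `p` the map `dh` is zero on group cohomology. -/
theorem zero_odd {p L : ℕ} (hp : Odd p) {c : List G → List A → F2} (hc : Eqv c)
    (hcoc : CocV p L c) : CobV (p + 1) L (dh c) := by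
  refine ⟨fun l w => pairK hb c [] w l, fun g l w => ?_, fun w => pairK_empty hb c [] w,
    fun l w hl hw => ?_⟩
  · exact pairK_map hb c hc g l [] w
  · exact pairK_eq hb hc hcoc l hl [] w (by rw [hw.2]; exact hp.add_one) hw

include hb in
/-- For even `p` the map `dh` is, up to coboundaries, the removal of the first letter. -/
theorem tail_even {p L : ℕ} (hp : Even p) {c : List G → List A → F2} (hc : Eqv c)
    (hcoc : CocV p L c) : ∃ h : List G → List A → F2, Eqv h ∧ (∀ w, h [] w = 0) ∧
      ∀ l x t, l.length = L → Good (p + 1) (x :: t) →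
        dh c l (x :: t) = c l t + dv h l (x :: t) := by
  refine ⟨fun l w => match w with
    | [] => 0
    | x :: t => pairK hb c [x] t l, fun g l w => ?_, fun w => ?_, fun l x t hl hw => ?_⟩
  · match w with
    | [] => rfl
    | x :: t => exact pairK_map hb c hc g l [x] t
  · match w with
    | [] => rfl
    | x :: t => exact pairK_empty hb c [x] t
  · show dL _ (x :: t) = c l t + dL (fun l' => pairK hb c [x] t l') l
    rw [dL_cons]
    congr 1
    refine pairK_eq hb hc hcoc l hl [x] t ?_ hw
    have := hw.2
    rw [List.length_cons] at this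
    have h2 : t.length = p := by omega
    rw [h2]; exact hp

end Pair

end Vale.Agent.P263.HS
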