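import Mathlib

/-!
# P263, block HS (helper310): simplices as lists over `F₂`

`dL ψ l` is the sum of `ψ` over the lists obtained from `l` by removing one entry (mod 2 no signs).
`prism ρ F` is the chain homotopy between the identity and `map ρ`.
`exact_words` : the complex of injective words on a finite set `B` has no cohomology in degrees
`p < card B`.
-/

namespace Vale.Agent.P263.HS

universe u v

/-- The field with two elements. -/
abbrev F2 := ZMod 2

section Calc
variable {A : Type u} {A' : Type v}

/-- Sum over the faces of a list. -/
def dL (ψ : List A → F2) : List A → F2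
  | [] => 0
  | x :: w => ψ w + dL (fun v => ψ (x :: v)) w

@[simp] theorem dL_nil (ψ : List A → F2) : dL ψ [] = 0 := rfl

theorem dL_cons (ψ : List A → F2) (x : A) (w : List A) :
    dL ψ (x :: w) = ψ w + dL (fun v => ψ (x :: v)) w := rfl

theorem dL_add (ψ φ : List A → F2) (l : List A) :
    dL (fun v => ψ v + φ v) l = dL ψ l + dL φ l := by
  induction l generalizing ψ φ with
  | nil => simp
  | cons x w ih => rw [dL_cons, dL_cons, dL_cons, ih]; ring

@[simp] theorem dL_zero (l : List A) : dL (fun _ => 0) l = 0 := by
  induction l with
  | nil => simp
  | cons x w ih => rw [dL_cons]; simp [ih]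

theorem dL_dL (ψ : List A → F2) (l : List A) : dL (dL ψ) l = 0 := by
  induction l generalizing ψ with
  | nil => simp
  | cons x w ih =>
    rw [dL_cons]
    have h : (fun v => dL ψ (x :: v)) = fun v => ψ v + dL (fun v => ψ (x :: v)) v := rfl
    rw [h, dL_add, ih]
    rw [add_zero]
    exact CharTwo.add_self_eq_zero _

/-- `dL` only looks at lists of length one less. -/
theorem dL_congr {ψ φ : List A → F2} {l : List A}
    (h : ∀ v : List A, v.length + 1 = l.length → v.Sublist l → ψ v = φ v) : dL ψ l = dL φ l := by
  induction l generalizing ψ φ with
  | nil => simp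
  | cons x w ih =>
    rw [dL_cons, dL_cons, h w (by simp) (List.sublist_cons_self x w)]
    congr 1
    refine ih fun v hv hs => h _ (by simp [hv]) (List.Sublist.cons_cons x hs)

theorem dL_map (e : A → A') (ψ : List A' → F2) (l : List A) :
    dL ψ (l.map e) = dL (fun v => ψ (v.map e)) l := by
  induction l generalizing ψ with
  | nil => simp
  | cons x w ih => rw [List.map_cons, dL_cons, dL_cons, ih]; rfl

/-- Fubini. -/
theorem dL_comm (f : List A → List A' → F2) (l : List A) (w : List A') :
    dL (fun l' => dL (fun w' => f l' w') w) l = dL (fun w' => dL (fun l' => f l' w') l) w := by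
  induction l generalizing f with
  | nil => simp
  | cons x t ih =>
    rw [dL_cons, ih]
    have : (fun w' => dL (fun l' => f l' w') (x :: t)) =
      fun w' => f t w' + dL (fun l' => f (x :: l') w') t := rfl
    rw [this, dL_add]

/-- Removal of one entry from `u ++ t`, when the removals in `u` do not contribute. -/
theorem dL_append (ψ : List A → F2) (u t : List A)
    (h : ∀ u' : List A, u'.length + 1 = u.length → u'.Sublist u → ψ (u' ++ t) = 0) :
    dL ψ (u ++ t) = dL (fun t' => ψ (u ++ t')) t := by
  induction u generalizing ψ with
  | nil => rfl
  | cons x u ih =>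
    rw [List.cons_append, dL_cons, h u (by simp) (List.sublist_cons_self x u), zero_add, ih]
    · rfl
    · intro u' hu' hs
      exact h (x :: u') (by simp [hu']) (List.Sublist.cons_cons x hs)

/-- The prism operator of a map `ρ`. -/
def prism (ρ : A → A) (F : List A → F2) : List A → F2
  | [] => 0
  | x :: l => F (x :: ρ x :: l.map ρ) + prism ρ (fun v => F (x :: v)) l

@[simp] theorem prism_nil (ρ : A → A) (F : List A → F2) : prism ρ F [] = 0 := rfl

theorem prism_cons (ρ : A → A) (F : List A → F2) (x : A) (l : List A) :
    prism ρ F (x :: l) = F (x :: ρ x :: l.map ρ) + prism ρ (fun v => F (x :: v)) l := rfl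

theorem prism_add (ρ : A → A) (F F' : List A → F2) (l : List A) :
    prism ρ (fun v => F v + F' v) l = prism ρ F l + prism ρ F' l := by
  induction l generalizing F F' with
  | nil => simp
  | cons x l ih => rw [prism_cons, prism_cons, prism_cons, ih]; ring

theorem prism_congr (ρ : A → A) {F F' : List A → F2} {l : List A}
    (h : ∀ v : List A, v.length = l.length + 1 → F v = F' v) : prism ρ F l = prism ρ F' l := by
  induction l generalizing F F' with
  | nil => simp
  | cons x l ih =>
    rw [prism_cons, prism_cons, h _ (by simp), ih]
    intro v hv
    exact h _ (by simp [hv])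

@[simp] theorem prism_zero (ρ : A → A) (l : List A) : prism ρ (fun _ => 0) l = 0 := by
  induction l with
  | nil => simp
  | cons x l ih => rw [prism_cons]; simp [ih]

/-- The homotopy formula. -/
theorem prism_eq (ρ : A → A) (F : List A → F2) (l : List A) :
    dL (prism ρ F) l + prism ρ (dL F) l = F l + F (l.map ρ) := by
  induction l generalizing F with
  | nil => simp [CharTwo.add_self_eq_zero]
  | cons x t ih =>
    rw [dL_cons, prism_cons]
    have h1 : (fun v => prism ρ F (x :: v)) =
        fun v => F (x :: ρ x :: v.map ρ) + prism ρ (fun v => F (x :: v)) v := rfl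
    have h2 : (fun v => dL F (x :: v)) = fun v => F v + dL (fun v => F (x :: v)) v := rfl
    rw [h1, h2, dL_add, prism_add]
    have h3 : dL F (x :: ρ x :: t.map ρ) = F (ρ x :: t.map ρ) +
        (F (x :: t.map ρ) + dL (fun v => F (x :: ρ x :: v.map ρ)) t) := by
      rw [dL_cons, dL_cons, dL_map]
    rw [h3]
    have h4 := ih (fun v => F (x :: v))
    have h5 : dL (prism ρ fun v => F (x :: v)) t =
        F (x :: t) + F (x :: t.map ρ) + prism ρ (dL fun v => F (x :: v)) t := by
      rw [← h4, add_assoc, CharTwo.add_self_eq_zero, add_zero]
    rw [h5, List.map_cons]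
    have e1 := CharTwo.add_self_eq_zero (prism ρ F t)
    have e2 := CharTwo.add_self_eq_zero (dL (fun v => F (x :: ρ x :: v.map ρ)) t)
    have e3 := CharTwo.add_self_eq_zero (prism ρ (dL fun v => F (x :: v)) t)
    have e4 := CharTwo.add_self_eq_zero (F (x :: t.map ρ))
    linear_combination e1 + e2 + e3 + e4

/-- Equivariance of the prism operator. -/
theorem prism_map (e : A → A') (ρ : A → A) (ρ' : A' → A') (h : ∀ x, ρ' (e x) = e (ρ x))
    (F : List A' → F2) (l : List A) :
    prism ρ' F (l.map e) = prism ρ (fun v => F (v.map e)) l := by
  induction l generalizing F with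
  | nil => simp
  | cons x l ih =>
    rw [List.map_cons, prism_cons, prism_cons, ih]
    congr 2
    simp only [List.map_cons, List.map_map, h]
    congr 3
    funext y
    exact h y

end Calc

section Words
variable {A : Type u} [DecidableEq A]

/-- Injective words of length `p` with letters in `B`. -/
def Wd (B : Finset A) (p : ℕ) (w : List A) : Prop := w.Nodup ∧ (∀ x ∈ w, x ∈ B) ∧ w.length = p

/-- The letter `a` is absent or in one of the first `i` places. -/
def Early (a : A) (i : ℕ) (w : List A) : Prop := a ∈ w → w.idxOf a < i

theorem idx_eq {a : A} {s : List A} (t : List A) (h : a ∉ s) :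
    (s ++ a :: t).idxOf a = s.length := by
  rw [List.idxOf_append_of_notMem h, List.idxOf_cons_self, add_zero]

theorem exists_split {a : A} {w : List A} (hw : w.Nodup) (ha : a ∈ w) :
    ∃ s t, w = s ++ a :: t ∧ a ∉ s ∧ a ∉ t ∧ w.idxOf a = s.length := by
  obtain ⟨s, t, rfl⟩ := List.append_of_mem ha
  have h1 : a ∉ s := fun h => (List.nodup_append.1 hw).2.2 a h a (List.mem_cons_self) rfl
  have h2 : a ∉ t := fun h => (List.nodup_cons.1 (List.nodup_append.1 hw).2.1).1 h
  exact ⟨s, t, rfl, h1, h2, idx_eq t h1⟩

theorem idx_sub {a : A} {w v : List A} (hw : w.Nodup) (hs : v.Sublist w) (ha : a ∈ v) :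
    v.idxOf a ≤ w.idxOf a := by
  obtain ⟨s, t, rfl, h1, h2, h3⟩ := exists_split hw (hs.subset ha)
  rw [h3]
  obtain ⟨s', t', rfl, hs', ht'⟩ := List.sublist_append_iff.1 hs
  have hns : a ∉ s' := fun h => h1 (hs'.subset h)
  rcases List.sublist_cons_iff.1 ht' with h | ⟨r, rfl, hr⟩
  · exfalso
    rcases List.mem_append.1 ha with h' | h'
    · exact hns h'
    · exact h2 (h.subset h')
  · rw [idx_eq r hns]
    exact hs'.length_le

omit [DecidableEq A] in
theorem Wd.sub {B : Finset A} {p q : ℕ} {w v : List A} (hw : Wd B p w) (hs : v.Sublist w)
    (hq : v.length = q) : Wd B q v :=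
  ⟨hw.1.sublist hs, fun x hx => hw.2.1 x (hs.subset hx), hq⟩

/-- The complex of injective words on `B` is exact in degrees `< card B`. -/
theorem exact_words : ∀ (n : ℕ) (B : Finset A), B.card = n → ∀ p : ℕ, p < B.card →
    ∀ φ : List A → F2, (∀ w, Wd B (p + 1) w → dL φ w = 0) →
    ∃ ψ : List A → F2, ∀ w, Wd B p w → φ w = dL ψ w := by
  intro n
  induction n using Nat.strong_induction_on with
  | _ n IH =>
  intro B hBn p hp φ hφ
  obtain ⟨a, ha⟩ : B.Nonempty := by rw [← Finset.card_pos]; omega
  have claim : ∀ i : ℕ, ∃ ψ : List A → F2, ∀ w, Wd B p w → Early a (i + 1) w → φ w = dL ψ w := by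
    intro i
    induction i with
    | zero =>
      refine ⟨fun v => if a ∈ v then 0 else φ (a :: v), fun w hw he => ?_⟩
      by_cases haw : a ∈ w
      · obtain ⟨s, t, rfl, h1, h2, h3⟩ := exists_split hw.1 haw
        have h4 := he haw
        rw [h3] at h4
        have h5 : s = [] := by
          rw [← List.length_eq_zero_iff]; omega
        subst h5
        rw [List.nil_append, dL_cons, if_neg h2]
        have : dL (fun v => if a ∈ a :: v then (0 : F2) else φ (a :: a :: v)) t = 0 := by
          rw [← dL_zero t]
          exact dL_congr fun v _ _ => by simp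
        rw [this, add_zero]
      · have h1 := hφ (a :: w) ⟨List.nodup_cons.2 ⟨haw, hw.1⟩, fun x hx => by
          rcases List.mem_cons.1 hx with rfl | hx
          · exact ha
          · exact hw.2.1 x hx, by simp [hw.2.2]⟩
        rw [dL_cons] at h1
        have h2 : dL (fun v => if a ∈ v then 0 else φ (a :: v)) w = dL (fun v => φ (a :: v)) w :=
          dL_congr fun v _ hs => if_neg fun h => haw (hs.subset h)
        rw [h2]
        exact (CharTwo.add_eq_zero.1 h1)
    | succ i ih =>
      obtain ⟨ψ, hψ⟩ := ih
      set φ' : List A → F2 := fun v => φ v + dL ψ v with hφ'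
      have hφ'0 : ∀ w, Wd B p w → Early a (i + 1) w → φ' w = 0 := fun w hw he => by
        rw [hφ']; simp only
        rw [hψ w hw he]; exact CharTwo.add_self_eq_zero _
      have hφ'd : ∀ w, Wd B (p + 1) w → dL φ' w = 0 := fun w hw => by
        rw [hφ', dL_add, hφ w hw, dL_dL, add_zero]
      -- the stage `i + 1`
      have stage : ∀ u : List A, ∃ Ψ : List A → F2, Wd (B.erase a) (i + 1) u →
          ∀ v, Wd B p (u ++ a :: v) → φ' (u ++ a :: v) = dL Ψ v := by
        intro u
        by_cases hu : Wd (B.erase a) (i + 1) u
        swap
        · exact ⟨0, fun h => absurd h hu⟩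
        by_cases hpi : i + 2 ≤ p
        swap
        · refine ⟨0, fun _ v hv => ?_⟩
          have := hv.2.2
          rw [List.length_append, List.length_cons, hu.2.2] at this
          omega
        have hau : a ∉ u := fun h => by simpa using hu.2.1 a h
        set C : Finset A := (B.erase a) \ u.toFinset with hC
        have hcC : C.card = B.card - 1 - (i + 1) := by
          rw [hC, Finset.card_sdiff_of_subset, Finset.card_erase_of_mem ha,
            List.toFinset_card_of_nodup hu.1, hu.2.2]
          intro x hx
          exact hu.2.1 x (List.mem_toFinset.1 hx)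
        have hB1 : 1 ≤ B.card := Finset.card_pos.2 ⟨a, ha⟩
        have hword : ∀ (m : ℕ) (v : List A), Wd C m v → Wd B (i + 1 + 1 + m) (u ++ a :: v) := by
          intro m v hv
          have hvC : ∀ x ∈ v, x ∈ B ∧ x ≠ a ∧ x ∉ u := fun x hx => by
            have := hv.2.1 x hx
            rw [hC] at this
            simp only [Finset.mem_sdiff, Finset.mem_erase, List.mem_toFinset] at this
            exact ⟨this.1.2, this.1.1, this.2⟩
          refine ⟨?_, ?_, ?_⟩
          · rw [List.nodup_append]
            refine ⟨hu.1, List.nodup_cons.2 ⟨fun h => (hvC a h).2.1 rfl, hv.1⟩, ?_⟩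
            intro x hx y hy hxy
            subst hxy
            rcases List.mem_cons.1 hy with rfl | hy
            · exact hau hx
            · exact (hvC x hy).2.2 hx
          · intro x hx
            rcases List.mem_append.1 hx with hx | hx
            · exact Finset.mem_of_mem_erase (hu.2.1 x hx)
            · rcases List.mem_cons.1 hx with rfl | hx
              · exact ha
              · exact (hvC x hx).1
          · rw [List.length_append, List.length_cons, hu.2.2, hv.2.2]; ring
        obtain ⟨Ψ, hΨ⟩ := IH C.card (by rw [hcC]; omega) C rfl (p - (i + 2)) (by rw [hcC]; omega)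
          (fun v => φ' (u ++ a :: v)) (by
            intro v hv
            have hw := hword _ v hv
            have e1 : i + 1 + 1 + (p - (i + 2) + 1) = p + 1 := by omega
            rw [e1] at hw
            have h1 := hφ'd _ hw
            have hav : a ∉ v := fun h => by
              have := hv.2.1 a h
              rw [hC] at this
              simp at this
            rw [dL_append] at h1
            · rw [dL_cons] at h1
              have h2 : φ' (u ++ v) = 0 := by
                refine hφ'0 _ (hw.sub ?_ ?_) ?_
                · exact List.Sublist.append (List.Sublist.refl u) (List.sublist_cons_self a v)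
                · have := hw.2.2
                  simp only [List.length_append, List.length_cons] at this ⊢
                  omega
                · intro h
                  exfalso
                  rcases List.mem_append.1 h with h | h
                  · exact hau h
                  · exact hav h
              rw [h2, zero_add] at h1
              exact h1
            · intro u' hu' hs
              refine hφ'0 _ (hw.sub ?_ ?_) ?_
              · exact List.Sublist.append hs (List.Sublist.refl _)
              · have := hw.2.2
                simp only [List.length_append, List.length_cons] at this ⊢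
                omega
              · intro _
                rw [idx_eq v (fun h => hau (hs.subset h))]
                have := hu.2.2
                omega)
        refine ⟨Ψ, fun _ v hv => hΨ v ?_⟩
        have h1 := List.nodup_append.1 hv.1
        have h2 := List.nodup_cons.1 h1.2.1
        refine ⟨h2.2, fun x hx => ?_, ?_⟩
        · rw [hC]
          simp only [Finset.mem_sdiff, Finset.mem_erase, List.mem_toFinset]
          refine ⟨⟨fun h => h2.1 (h ▸ hx), hv.2.1 x (by simp [hx])⟩, fun h => ?_⟩
          exact h1.2.2 x h x (by simp [hx]) rfl
        · have := hv.2.2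
          rw [List.length_append, List.length_cons, hu.2.2] at this
          omega
      choose Ψ hΨ using stage
      set ψ' : List A → F2 := fun w =>
        if a ∈ w ∧ w.idxOf a = i + 1 then Ψ (w.take (i + 1)) (w.drop (i + 2)) else 0 with hψ'
      refine ⟨fun w => ψ w + ψ' w, fun w hw he => ?_⟩
      rw [dL_add]
      have goal : φ' w = dL ψ' w := by
        by_cases hE : Early a (i + 1) w
        · rw [hφ'0 w hw hE, ← dL_zero w]
          refine dL_congr fun v _ hs => ?_
          rw [hψ']
          simp only
          rw [if_neg]
          rintro ⟨hav, hi⟩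
          have h1 := hE (hs.subset hav)
          have h2 := idx_sub hw.1 hs hav
          omega
        · have hE' : a ∈ w ∧ w.idxOf a = i + 1 := by
            unfold Early at hE
            push Not at hE
            have := he hE.1
            exact ⟨hE.1, by omega⟩
          obtain ⟨u, v, rfl, h1, h2, h3⟩ := exists_split hw.1 hE'.1
          rw [hE'.2] at h3
          have hnd := List.nodup_append.1 hw.1
          have hu : Wd (B.erase a) (i + 1) u := ⟨hnd.1, fun x hx => by
            rw [Finset.mem_erase]
            exact ⟨fun h => h1 (h ▸ hx), hw.2.1 x (List.mem_append_left _ hx)⟩, h3.symm⟩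
          rw [hΨ u hu v hw, dL_append]
          · rw [dL_cons]
            have e1 : ψ' (u ++ v) = 0 := by
              rw [hψ']
              simp only
              rw [if_neg]
              rintro ⟨h, -⟩
              rcases List.mem_append.1 h with h | h
              · exact h1 h
              · exact h2 h
            rw [e1, zero_add]
            refine dL_congr fun v' _ _ => ?_
            rw [hψ']
            simp only
            rw [if_pos ⟨by simp, by rw [idx_eq v' h1, h3]⟩]
            have e2 : (u ++ a :: v').take (i + 1) = u := by
              rw [h3]; exact List.take_left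
            have e3 : (u ++ a :: v').drop (i + 2) = v' := by
              have : i + 2 = u.length + 1 := by omega
              rw [this, ← List.drop_drop, List.drop_left]
              rfl
            rw [e2, e3]
          · intro u' hu' hs
            rw [hψ']
            simp only
            rw [if_neg]
            rintro ⟨-, h⟩
            rw [idx_eq v (fun h => h1 (hs.subset h))] at h
            omega
      have : φ w = φ' w + dL ψ w := by
        rw [hφ']; simp only
        rw [add_assoc, CharTwo.add_self_eq_zero, add_zero]
      rw [this, goal, add_comm]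
  obtain ⟨ψ, hψ⟩ := claim p
  refine ⟨ψ, fun w hw => hψ w hw fun h => ?_⟩
  have := List.idxOf_lt_length_of_mem h
  rw [hw.2.2] at this
  omega

end Words

end Vale.Agent.P263.HS
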