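import Vale.Agent.P263.HS.Shap

/-!
# P263, block HS (helper310): homological stability of the symmetric groups

`inj_stab`, `sur_stab` : restriction to the stabiliser of a point, in the form of the words of
length `1`.
-/

namespace Vale.Agent.P263.HS

universe u v

open Classical in
section
variable {G : Type u} [Group G] {A : Type v} [MulAction G A]

/-- A remaining letter. -/
def mkR {w0 : List A} (a : A) (h : a ∉ w0) : Rest w0 := ⟨a, h⟩

/-- The value at the word `w0` of a function, as a function for the stabiliser of `w0`. -/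
def ind (w0 : List A) (f : List G → List A → F2) : List (Kg G w0) → List (Rest w0) → F2 :=
  fun l w => f (l.map fun k : Kg G w0 => (k : G)) ((w.map fun a : Rest w0 => a.1) ++ w0)

theorem ind_eqv (w0 : List A) {f : List G → List A → F2} (hf : Eqv f) : Eqv (ind w0 f) := by
  intro k l w
  unfold ind
  have h := hf (k : G) (l.map fun k : Kg G w0 => (k : G)) ((w.map fun a : Rest w0 => a.1) ++ w0)
  rw [List.map_append, map_fix k.2] at h
  rw [← h]
  simp only [List.map_map]
  rfl

theorem dv_ind (w0 : List A) (f : List G → List A → F2) (l : List (Kg G w0))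
    (w : List (Rest w0)) : dv (ind w0 f) l w = dv f (l.map fun k : Kg G w0 => (k : G))
      ((w.map fun a : Rest w0 => a.1) ++ w0) := by
  unfold dv ind
  rw [dL_map]

theorem good_ind {p m : ℕ} {w0 : List A} (h0 : Good p w0) {w : List (Rest w0)} (hw : Good m w) :
    Good (m + p) ((w.map fun a : Rest w0 => a.1) ++ w0) := by
  refine ⟨?_, by rw [List.length_append, List.length_map, hw.2, h0.2]⟩
  rw [List.nodup_append]
  refine ⟨hw.1.map Subtype.val_injective, h0.1, ?_⟩
  rintro x hx y hy rfl
  obtain ⟨a, _, rfl⟩ := List.mem_map.1 hx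
  exact a.2 hy

variable (hb : Function.Bijective (MulAction.toPerm : G → Equiv.Perm A))

/-- The prism for the comparison with the stabiliser. -/
noncomputable def PP (w0 : List A) (p : ℕ) (f : List G → List A → F2) : List G → List A → F2 :=
  fun l w => if Good p w then prism (rho w0 w) (fun l => f l w) l else 0

include hb in
theorem PP_eqv {w0 : List A} {p : ℕ} (h0 : Good p w0) {f : List G → List A → F2} (hf : Eqv f) :
    Eqv (PP w0 p f) := by
  intro g l w
  unfold PP
  by_cases hw : Good p w
  · rw [if_pos hw, if_pos (hw.map g), prism_map (g * ·) (rho w0 w) _ (rho_map hb h0 hw g)]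
    exact prism_congr _ fun v _ => hf g v w
  · rw [if_neg hw, if_neg fun h => hw h.of_map]

theorem PP_nil (w0 : List A) (p : ℕ) (f : List G → List A → F2) (w : List A) :
    PP w0 p f [] w = 0 := by
  unfold PP
  split_ifs <;> rfl

include hb in
/-- **Shapiro.** -/
theorem PP_eq {w0 : List A} {p L : ℕ} (h0 : Good p w0) {f : List G → List A → F2} (hf : Eqv f)
    (hc : CocV p L f) (l : List G) (w : List A) (hl : l.length = L) (hw : Good p w) :
    f l w = f ((kap w0 l w).map fun k : Kg G w0 => (k : G)) w0 + dv (PP w0 p f) l w := by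
  have h1 := prism_eq (rho w0 w) (fun l => f l w) l
  have h2 : prism (rho w0 w) (dL fun l => f l w) l = 0 := by
    rw [← prism_zero (rho w0 w) l]
    exact prism_congr _ fun v hv => hc v w (by rw [hv, hl]) hw
  have h3 : f (l.map (rho w0 w)) w = f ((kap w0 l w).map fun k : Kg G w0 => (k : G)) w0 := by
    rw [map_rho]
    have := hf (tr w0 w : G) ((kap w0 l w).map fun k : Kg G w0 => (k : G)) w0
    rw [tr_map hb h0 hw] at this
    exact this
  have h4 : dv (PP w0 p f) l w = dL (prism (rho w0 w) fun l => f l w) l := by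
    unfold dv PP
    simp only [if_pos hw]
  rw [h2, add_zero, h3] at h1
  rw [h4, h1]
  have := CharTwo.add_self_eq_zero (f ((kap w0 l w).map fun k : Kg G w0 => (k : G)) w0)
  linear_combination -this

/-- The extension of a function for the stabiliser. -/
noncomputable def ext (w0 : List A) (p : ℕ) (e : List (Kg G w0) → List (Rest w0) → F2) :
    List G → List A → F2 := fun l w => if Good p w then e (kap w0 l w) [] else 0

include hb in
theorem ext_eqv {w0 : List A} {p : ℕ} (h0 : Good p w0)
    {e : List (Kg G w0) → List (Rest w0) → F2} (he : Eqv e) : Eqv (ext w0 p e) := by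
  intro g l w
  unfold ext
  by_cases hw : Good p w
  · obtain ⟨k, -, hk⟩ := kap_map hb h0 hw g l
    rw [if_pos hw, if_pos (hw.map g), hk]
    exact he k (kap w0 l w) []
  · rw [if_neg hw, if_neg fun h => hw h.of_map]

theorem ext_nil (w0 : List A) (p : ℕ) {e : List (Kg G w0) → List (Rest w0) → F2}
    (he : ∀ w, e [] w = 0) (w : List A) : ext w0 p e [] w = 0 := by
  unfold ext
  split_ifs
  · exact he []
  · rfl

theorem dv_ext (w0 : List A) (p : ℕ) (e : List (Kg G w0) → List (Rest w0) → F2) (l : List G)
    (w : List A) (hw : Good p w) : dv (ext w0 p e) l w = dv e (kap w0 l w) [] := by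
  unfold dv ext
  simp only [if_pos hw]
  unfold kap
  rw [dL_map]

/-- Injectivity of the restriction, at words of length `p`. -/
def InjE (G : Type u) [Group G] (A : Type v) [MulAction G A] (p L : ℕ) : Prop :=
  ∀ c : List G → List A → F2, Eqv c → CocV p L c → CobV (p + 1) L (dh c) → CobV p L c

/-- Surjectivity of the restriction, at words of length `p`. -/
def SurE (G : Type u) [Group G] (A : Type v) [MulAction G A] (p L : ℕ) : Prop :=
  ∀ e : List G → List A → F2, Eqv e → CocV (p + 1) L e →
    ∃ c h : List G → List A → F2, Eqv c ∧ CocV p L c ∧ Eqv h ∧ (∀ w, h [] w = 0) ∧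
      ∀ l w, l.length = L → Good (p + 1) w → e l w = dh c l w + dv h l w

theorem good_zero {B : Type v} {w : List B} : Good 0 w ↔ w = [] := by
  constructor
  · intro h
    exact List.length_eq_zero_iff.1 h.2
  · rintro rfl
    exact ⟨List.nodup_nil, rfl⟩

theorem good_one {B : Type v} {w : List B} (h : Good 1 w) : ∃ a, w = [a] :=
  List.length_eq_one_iff.1 h.2

include hb in
theorem injE_of {p L : ℕ} (hp : Even p) (hw0 : ∃ w0 : List A, Good p w0)
    (H : ∀ w0 : List A, Good p w0 → InjE (Kg G w0) (Rest w0) 0 L) : InjE G A p L := by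
  intro c hc hcoc hcob
  obtain ⟨w0, h0⟩ := hw0
  obtain ⟨h1, h1e, h1n, h1c⟩ := hcob
  obtain ⟨h2, h2e, h2n, h2c⟩ := tail_even hb hp hc hcoc
  -- the function for the stabiliser
  have hc' : Eqv (ind w0 c) := ind_eqv w0 hc
  have key := H w0 h0 (ind w0 c) hc' (by
    intro l w hl hw
    rw [good_zero.1 hw, dv_ind]
    exact hcoc _ _ (by rw [List.length_map, hl]) (by simpa using h0)) (by
    refine ⟨ind w0 fun l w => h1 l w + h2 l w, ind_eqv w0 (h1e.add h2e), fun w => ?_, ?_⟩
    · show h1 [] _ + h2 [] _ = 0
      rw [h1n, h2n, add_zero]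
    · intro l w hl hw
      obtain ⟨a, rfl⟩ := good_one hw
      rw [dv_ind]
      have hg := good_ind h0 hw
      have hl' : (l.map fun k : Kg G w0 => (k : G)).length = L := by rw [List.length_map, hl]
      have e1 := h1c _ _ hl' (by rw [add_comm]; exact hg)
      have e2 := h2c _ a.1 w0 hl' (by rw [add_comm]; exact hg)
      rw [dv_add]
      have e3 : dh (ind w0 c) l [a] = c (l.map fun k : Kg G w0 => (k : G)) w0 := by
        unfold dh
        rw [dL_cons]
        show c _ _ + 0 = _
        rw [add_zero]
        rfl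
      rw [e3]
      have e4 : ((([a] : List (Rest w0)).map fun a : Rest w0 => a.1) ++ w0) = a.1 :: w0 := rfl
      rw [e4] at e1 ⊢
      rw [e1] at e2
      rw [e2]
      have := CharTwo.add_self_eq_zero (dv h2 (l.map fun k : Kg G w0 => (k : G)) (a.1 :: w0))
      linear_combination -this)
  obtain ⟨e, hee, hen, hec⟩ := key
  refine ⟨fun l w => ext w0 p e l w + PP w0 p c l w, (ext_eqv hb h0 hee).add (PP_eqv hb h0 hc),
    fun w => by
      show ext w0 p e [] w + PP w0 p c [] w = 0
      rw [ext_nil w0 p hen, PP_nil, add_zero], fun l w hl hw => ?_⟩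
  rw [dv_add, dv_ext w0 p e l w hw, PP_eq hb h0 hc hcoc l w hl hw]
  congr 1
  rw [← hec (kap w0 l w) [] (by unfold kap; rw [List.length_map, hl]) (good_zero.2 rfl)]
  rfl

include hb in
theorem surE_of {p L : ℕ} (hp : Even p) (hw0 : ∃ w0 : List A, Good p w0)
    (H : ∀ w0 : List A, Good p w0 → SurE (Kg G w0) (Rest w0) 0 L) : SurE G A p L := by
  intro e he hcoc
  obtain ⟨w0, h0⟩ := hw0
  obtain ⟨c', h', hc'e, hc'c, hh'e, hh'n, hh'c⟩ := H w0 h0 (ind w0 e) (ind_eqv w0 he) (by
    intro l w hl hw
    rw [dv_ind]
    exact hcoc _ _ (by rw [List.length_map, hl]) (by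
      rw [add_comm]
      exact good_ind h0 hw))
  have hce : Eqv (ext w0 p c') := ext_eqv hb h0 hc'e
  have hcc : CocV p L (ext w0 p c') := by
    intro l w hl hw
    rw [dv_ext w0 p c' l w hw]
    exact hc'c _ _ (by unfold kap; rw [List.length_map, hl]) (good_zero.2 rfl)
  obtain ⟨h2, h2e, h2n, h2c⟩ := tail_even hb hp hce hcc
  -- the two further homotopies
  let h3 : List G → List A → F2 := fun l w => match w with
    | [] => 0
    | x :: t => if hg : Good p t ∧ (tr w0 t : G)⁻¹ • x ∉ w0 then
        h' (kap w0 l t) [mkR ((tr w0 t : G)⁻¹ • x) hg.2] else 0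
  let h4 : List G → List A → F2 := fun l w => match w with
    | [] => 0
    | x :: t => if Good p t then prism (rho w0 t) (fun l => e l (x :: t)) l else 0
  have h3n : ∀ w, h3 [] w = 0 := by
    intro w
    match w with
    | [] => rfl
    | x :: t =>
      show (if hg : Good p t ∧ (tr w0 t : G)⁻¹ • x ∉ w0 then
        h' (kap w0 [] t) [mkR ((tr w0 t : G)⁻¹ • x) hg.2] else 0) = 0
      split_ifs
      · exact hh'n _
      · rfl
  have h4n : ∀ w, h4 [] w = 0 := by
    intro w
    match w with
    | [] => rfl
    | x :: t =>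
      show (if Good p t then prism (rho w0 t) (fun l => e l (x :: t)) [] else 0) = 0
      split_ifs <;> rfl
  have h3e : Eqv h3 := by
    intro g l w
    match w with
    | [] => rfl
    | x :: t =>
      show (if hg : Good p (t.map (g • ·)) ∧ (tr w0 (t.map (g • ·)) : G)⁻¹ • (g • x) ∉ w0 then
        h' (kap w0 (l.map (g * ·)) (t.map (g • ·)))
          [mkR ((tr w0 (t.map (g • ·)) : G)⁻¹ • (g • x)) hg.2] else 0) =
        (if hg : Good p t ∧ (tr w0 t : G)⁻¹ • x ∉ w0 then
        h' (kap w0 l t) [mkR ((tr w0 t : G)⁻¹ • x) hg.2] else 0)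
      by_cases ht : Good p t
      · obtain ⟨k, hk1, hk2⟩ := kap_map hb h0 ht g l
        have e1 : (tr w0 (t.map (g • ·)) : G)⁻¹ • (g • x) = (k : G) • ((tr w0 t : G)⁻¹ • x) := by
          rw [← mul_smul, hk1, mul_smul]
        by_cases hx : (tr w0 t : G)⁻¹ • x ∉ w0
        · have hx2 : (k : G) • ((tr w0 t : G)⁻¹ • x) ∉ w0 :=
            (k • mkR _ hx).2
          rw [dif_pos ⟨ht.map g, by rw [e1]; exact hx2⟩, dif_pos ⟨ht, hx⟩, hk2]
          rw [← hh'e k (kap w0 l t) [mkR ((tr w0 t : G)⁻¹ • x) hx]]
          congr 2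
          exact Subtype.ext e1
        · have hx2 : ¬ (k : G) • ((tr w0 t : G)⁻¹ • x) ∉ w0 := by
            rw [not_not] at hx ⊢
            rw [k.2 _ hx]
            exact hx
          rw [dif_neg, dif_neg]
          · exact fun h => hx h.2
          · rw [e1]
            exact fun h => hx2 h.2
      · have n1 : ¬ (Good p (t.map (g • ·)) ∧ (tr w0 (t.map (g • ·)) : G)⁻¹ • (g • x) ∉ w0) :=
          fun h => ht h.1.of_map
        have n2 : ¬ (Good p t ∧ (tr w0 t : G)⁻¹ • x ∉ w0) := fun h => ht h.1
        rw [dif_neg n1, dif_neg n2]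
  have h4e : Eqv h4 := by
    intro g l w
    match w with
    | [] => rfl
    | x :: t =>
      show (if Good p (t.map (g • ·)) then prism (rho w0 (t.map (g • ·)))
        (fun l => e l (g • x :: t.map (g • ·))) (l.map (g * ·)) else 0) =
        (if Good p t then prism (rho w0 t) (fun l => e l (x :: t)) l else 0)
      by_cases ht : Good p t
      · rw [if_pos ht, if_pos (ht.map g), prism_map (g * ·) (rho w0 t) _ (rho_map hb h0 ht g)]
        exact prism_congr _ fun v _ => he g v (x :: t)
      · rw [if_neg ht, if_neg fun h => ht h.of_map]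
  refine ⟨ext w0 p c', fun l w => (h2 l w + h3 l w) + h4 l w, hce, hcc, (h2e.add h3e).add h4e,
    fun w => by
      show h2 [] w + h3 [] w + h4 [] w = 0
      rw [h2n, h3n, h4n]; simp, fun l w hl hw => ?_⟩
  match w with
  | [] =>
    have := hw.2
    simp at this
  | x :: t =>
    have hnd := List.nodup_cons.1 hw.1
    have ht : Good p t := ⟨hnd.2, by have := hw.2; simpa using this⟩
    have hx : (tr w0 t : G)⁻¹ • x ∉ w0 := by
      intro h
      apply hnd.1
      have := List.mem_map_of_mem (f := ((tr w0 t : G) • ·)) h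
      rw [tr_map hb h0 ht] at this
      simpa using this
    have e1 : dv h3 l (x :: t) = dv h' (kap w0 l t) [mkR ((tr w0 t : G)⁻¹ • x) hx] := by
      show dL (fun l' => h3 l' (x :: t)) l = dL (fun l' => h' l' _) (kap w0 l t)
      unfold kap
      rw [dL_map]
      congr 1
      funext l'
      exact dif_pos ⟨ht, hx⟩
    have e2 : dv h4 l (x :: t) = dL (prism (rho w0 t) fun l => e l (x :: t)) l := by
      show dL (fun l' => h4 l' (x :: t)) l = _
      congr 1
      funext l'
      exact if_pos ht
    have e3 := prism_eq (rho w0 t) (fun l => e l (x :: t)) l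
    have e4 : prism (rho w0 t) (dL fun l => e l (x :: t)) l = 0 := by
      rw [← prism_zero (rho w0 t) l]
      exact prism_congr _ fun v hv => hcoc v _ (by rw [hv, hl]) hw
    have e5 : e (l.map (rho w0 t)) (x :: t) =
        ind w0 e (kap w0 l t) [mkR ((tr w0 t : G)⁻¹ • x) hx] := by
      rw [map_rho]
      have := he (tr w0 t : G) ((kap w0 l t).map fun k : Kg G w0 => (k : G)) ((tr w0 t : G)⁻¹ • x :: w0)
      rw [List.map_cons, tr_map hb h0 ht, smul_inv_smul] at this
      exact this
    have e6 := hh'c (kap w0 l t) [mkR ((tr w0 t : G)⁻¹ • x) hx]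
      (by unfold kap; rw [List.length_map, hl]) ⟨List.nodup_singleton _, rfl⟩
    have e7 : dh c' (kap w0 l t) [mkR ((tr w0 t : G)⁻¹ • x) hx] = c' (kap w0 l t) [] := by
      unfold dh
      rw [dL_cons]
      exact add_zero _
    have e8 := h2c l x t hl hw
    have e9 : ext w0 p c' l t = c' (kap w0 l t) [] := if_pos ht
    rw [dv_add, dv_add, e8, e9, e1, e2]
    rw [e7] at e6
    rw [e4, add_zero, e5, e6] at e3
    rw [e3]
    have s1 := CharTwo.add_self_eq_zero (c' (kap w0 l t) [])
    have s2 := CharTwo.add_self_eq_zero (dv h2 l (x :: t))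
    have s3 := CharTwo.add_self_eq_zero
      (dv h' (kap w0 l t) [mkR ((tr w0 t : G)⁻¹ • x) hx])
    linear_combination -s1 - s2 - s3

end

/-- The statement proved by induction. -/
def RR (G : Type u) [Group G] (A : Type v) [MulAction G A] (p q : ℕ) : Prop :=
  ∀ g : List G → List A → F2, Eqv g → CobV (p + 1) (q + 1) (dh g) →
    ∃ h1 h0 : List G → List A → F2, Eqv h1 ∧ (∀ w, h1 [] w = 0) ∧ Eqv h0 ∧
      (∀ w, h0 [] w = 0) ∧
      ∀ l w, l.length = q + 1 → Good p w → g l w = dv h1 l w + dh h0 l w

theorem injE_of_RR {G : Type u} [Group G] {A : Type v} [MulAction G A] {q : ℕ}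
    (h : RR G A 0 q) : InjE G A 0 (q + 1) := by
  intro c hc _ hcob
  obtain ⟨h1, h0, a, b, _, _, e⟩ := h c hc hcob
  refine ⟨h1, a, b, fun l w hl hw => ?_⟩
  rw [e l w hl hw, good_zero.1 hw]
  exact add_zero _

theorem surE_of_RR {G : Type u} [Group G] {A : Type v} [MulAction G A] [Nonempty A] {q : ℕ}
    (hb : Function.Bijective (MulAction.toPerm : G → Equiv.Perm A))
    (h : RR G A 1 q) : SurE G A 0 (q + 1) := by
  classical
  intro e he hcoc
  obtain ⟨h1, h0, a, b, a', b', e1⟩ := h e he (zero_odd hb odd_one he hcoc)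
  refine ⟨h0, h1, a', ?_, a, b, fun l w hl hw => by rw [e1 l w hl hw, add_comm]⟩
  intro l w hl hw
  rw [good_zero.1 hw]
  obtain ⟨x⟩ := ‹Nonempty A›
  have hx : Good 1 [x] := ⟨List.nodup_singleton _, rfl⟩
  have e2 : dv h0 l [] = dv (fun l w => e l w + dv h1 l w) l [x] := by
    unfold dv
    refine dL_congr fun v hv _ => ?_
    have := e1 v [x] (by omega) hx
    have e3 : dh h0 v [x] = h0 v [] := by
      unfold dh
      rw [dL_cons]
      exact add_zero _
    rw [e3] at this
    unfold dv at this
    simp only
    rw [this]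
    have s := CharTwo.add_self_eq_zero (dL (fun l' => h1 l' [x]) v)
    linear_combination -s
  rw [e2, dv_add, dv_dv, add_zero]
  exact hcoc l [x] hl hx

theorem exists_good {A : Type v} [Fintype A] {p : ℕ} (hp : p ≤ Fintype.card A) :
    ∃ w : List A, Good p w := by
  classical
  refine ⟨(Finset.univ : Finset A).toList.take p, (Finset.nodup_toList _).sublist
    (List.take_sublist _ _), ?_⟩
  rw [List.length_take, Finset.length_toList, Finset.card_univ]
  omega

/-- **The induction.** -/
theorem RR_all : ∀ (q : ℕ) (G : Type u) [Group G] (A : Type v) [MulAction G A] [Fintype A],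
    Function.Bijective (MulAction.toPerm : G → Equiv.Perm A) → ∀ p : ℕ,
    p + 2 * q < Fintype.card A → RR G A p q := by
  classical
  intro q
  induction q with
  | zero =>
    intro G _ A _ _ hb p hp g hg hcob
    obtain ⟨h1, h1e, h1n, h1c⟩ := hcob
    obtain ⟨h0, h0e, h0n, h0c⟩ := row_exact (p := p) (L := 1) (by omega) le_rfl hg (by
      intro l w hl hw
      rw [h1c l w hl hw]
      obtain ⟨s, rfl⟩ := List.length_eq_one_iff.1 hl
      unfold dv
      rw [dL_cons, h1n]
      exact add_zero _)
    exact ⟨fun _ _ => 0, h0, Eqv.zero, fun _ => rfl, h0e, h0n, fun l w hl hw => by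
      rw [h0c l w hl hw]
      unfold dv
      rw [dL_zero, zero_add]⟩
  | succ q ih =>
    intro G _ A _ _ hb p hp g hg hcob
    obtain ⟨g1, g1e, g1n, g1c⟩ := hcob
    -- the correction of `g1`
    have key : ∃ c : List G → List A → F2, Eqv c ∧ (∀ w, c [] w = 0) ∧
        CocV (p + 1) (q + 1) c ∧
        CobV (p + 2) (q + 1) (dh fun l w => g1 l w + c l w) := by
      have hdc : CocV (p + 2) (q + 1) (dh g1) := by
        intro l w hl hw
        rw [dv_dh, dh_congr (f' := dh g) hw fun w' hw' => (g1c l w' hl hw').symm, dh_dh]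
      rcases Nat.even_or_odd p with hpe | hpo
      · refine ⟨fun _ _ => 0, Eqv.zero, fun _ => rfl, ?_, ?_⟩
        · intro l w _ _
          exact dL_zero _
        · have h1 : (dh fun l w => g1 l w + (fun _ _ => 0 : List G → List A → F2) l w) =
              dh g1 := by
            congr 1
            funext l w
            exact add_zero _
          rw [h1]
          refine injE_of hb (hpe.add even_two) (exists_good (by omega)) (fun w0 h0 => ?_)
            (dh g1) g1e.dh hdc ⟨fun _ _ => 0, Eqv.zero, fun _ => rfl, fun l w _ _ => ?_⟩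
          · apply injE_of_RR
            apply ih (Kg G w0) (Rest w0) (Kg_bij hb w0)
            rw [card_rest h0]
            omega
          · rw [dh_dh]
            exact (dL_zero _).symm
      · obtain ⟨c, h, hce, hcc, hhe, hhn, hh⟩ := surE_of (p := p + 1) (L := q + 1) hb
          hpo.add_one (exists_good (by omega)) (fun w0 h0 => by
            have : Nonempty (Rest w0) := by
              rw [← Fintype.card_pos_iff, card_rest h0]
              omega
            apply surE_of_RR (Kg_bij hb w0)
            apply ih (Kg G w0) (Rest w0) (Kg_bij hb w0)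
            rw [card_rest h0]
            omega) (dh g1) g1e.dh hdc
        refine ⟨fun l w => if l = [] then 0 else c l w, ?_, fun _ => if_pos rfl, ?_, ?_⟩
        · intro g l w
          simp only [List.map_eq_nil_iff]
          split_ifs
          · rfl
          · exact hce g l w
        · intro l w hl hw
          rw [← hcc l w hl hw]
          exact dv_congr hl fun l' hl' => if_neg (by rintro rfl; simp at hl')
        · refine ⟨h, hhe, hhn, fun l w hl hw => ?_⟩
          have hl0 : l ≠ [] := by rintro rfl; simp at hl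
          rw [dh_add]
          have e1 := hh l w hl hw
          have e2 : dh (fun l w => if l = [] then 0 else c l w) l w = dh c l w := by
            unfold dh
            simp only [if_neg hl0]
          rw [e2, e1]
          have s := CharTwo.add_self_eq_zero (dh c l w)
          linear_combination s
    obtain ⟨c, hce, hcn, hcc, hcob⟩ := key
    obtain ⟨h1', h0', h1e', h1n', h0e', h0n', hh'⟩ := ih G A hb (p + 1) (by omega)
      (fun l w => g1 l w + c l w) (g1e.add hce) hcob
    -- the last step
    obtain ⟨h0, h0e, h0n, h0c⟩ := row_exact (p := p) (L := q + 2) (by omega) (by omega)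
      (hg.add h0e'.dv) (by
        intro l w hl hw
        rw [dh_add, g1c l w hl hw, ← dv_dh]
        have e1 : dv g1 l w = dv (fun l w => (c l w + dv h1' l w) + dh h0' l w) l w :=
          dv_congr (L := q + 1) hl fun l' hl' => by
            have := hh' l' w hl' hw
            have s := CharTwo.add_self_eq_zero (c l' w)
            linear_combination this - s
        rw [e1, dv_add, dv_add, hcc l w hl hw, dv_dv, zero_add, zero_add]
        exact CharTwo.add_self_eq_zero _)
    refine ⟨h0', h0, h0e', h0n', h0e, h0n, fun l w hl hw => ?_⟩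
    have e1 := h0c l w hl hw
    have s := CharTwo.add_self_eq_zero (dv h0' l w)
    linear_combination e1 - s

end Vale.Agent.P263.HS
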