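import Vale.Agent.P263.GC.Range
import Vale.Agent.P263.HS.List

/-!
# P263, block HS (helper373): the simplices of `M(N)` as tuples of permutations

`mkN x`, for `x : Fin (q + 1) → Perm (Fin N)`, is the simplex of `MN N` with the points
`i ↦ (x i)⁻¹ a`, `a : Fin N`. Every simplex is of this form, `mkN x = mkN y` if and only if
`y = g * x` for one permutation `g`, the simplicial operators act by composition, and the image of
`sN n` is given by the tuples with `x i 0 = 0`.
-/

namespace Vale.Agent.P263.HS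

open Vale.Agent.P263.S Vale.Agent.P263.E Vale.Agent.P263.G Vale.Agent.P263.GC

/-! ### simplices -/

section MkN

variable {N n p q : ℕ}

theorem perm_apply_inv {T : Type*} (e : Equiv.Perm T) (a : T) : e (e⁻¹ a) = a :=
  Equiv.apply_symm_apply e a

theorem perm_inv_apply {T : Type*} (e : Equiv.Perm T) (a : T) : e⁻¹ (e a) = a :=
  Equiv.symm_apply_apply e a

/-- the rank vector of `a` -/
def rkN (x : Fin (q + 1) → Equiv.Perm (Fin N)) (a : Fin N) : Pt q :=
  fun i => (((x i)⁻¹ a : Fin N) : ℕ)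

theorem rkN_apply (x : Fin (q + 1) → Equiv.Perm (Fin N)) (a : Fin N) (i : Fin (q + 1)) :
    rkN x a i = (((x i)⁻¹ a : Fin N) : ℕ) := rfl

theorem rkN_inj' (x : Fin (q + 1) → Equiv.Perm (Fin N)) {a b : Fin N} {i : Fin (q + 1)}
    (h : rkN x a i = rkN x b i) : a = b :=
  ((x i)⁻¹).injective (Fin.ext h)

theorem rkN_injective (x : Fin (q + 1) → Equiv.Perm (Fin N)) : Function.Injective (rkN x) :=
  fun _ _ h => rkN_inj' x (congrFun h 0)

/-- (B1) the simplex of a tuple of permutations -/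
def mkN (x : Fin (q + 1) → Equiv.Perm (Fin N)) : (MN N).obj q :=
  ⟨{ pts := Finset.univ.image (fun a i => (((x i)⁻¹ a : Fin N) : ℕ))
     inj := by
      intro y hy z hz i h
      obtain ⟨a, -, rfl⟩ := Finset.mem_image.1 hy
      obtain ⟨b, -, rfl⟩ := Finset.mem_image.1 hz
      rw [rkN_inj' x h]
     lt := by
      intro y hy i
      obtain ⟨a, -, rfl⟩ := Finset.mem_image.1 hy
      have hc : (Finset.univ.image (rkN x)).card = N := by
        rw [Finset.card_image_of_injective _ (rkN_injective x), Finset.card_univ,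
          Fintype.card_fin]
      exact ((x i)⁻¹ a).isLt.trans_eq hc.symm },
    by
      have hc : (Finset.univ.image (rkN x)).card = N := by
        rw [Finset.card_image_of_injective _ (rkN_injective x), Finset.card_univ,
          Fintype.card_fin]
      exact hc⟩

theorem mkN_pts (x : Fin (q + 1) → Equiv.Perm (Fin N)) :
    (mkN x).1.pts = Finset.univ.image (fun a i => (((x i)⁻¹ a : Fin N) : ℕ)) := rfl

theorem mem_mkN {x : Fin (q + 1) → Equiv.Perm (Fin N)} {y : Pt q} :
    y ∈ (mkN x).1.pts ↔ ∃ a, rkN x a = y := by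
  constructor
  · intro h
    obtain ⟨a, -, h⟩ := Finset.mem_image.1 h
    exact ⟨a, h⟩
  · rintro ⟨a, h⟩
    exact Finset.mem_image.2 ⟨a, Finset.mem_univ _, h⟩

/-- (B2) every simplex is of the form `mkN x` -/
theorem mkN_surj (F : (MN N).obj q) : ∃ x : Fin (q + 1) → Equiv.Perm (Fin N), mkN x = F := by
  classical
  have hb : ∀ i : Fin (q + 1), Function.Bijective
      (fun y : {y // y ∈ F.1.pts} => (⟨y.1 i, by
        have := F.1.lt_deg y.2 i
        rwa [F.2] at this⟩ : Fin N)) := by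
    intro i
    constructor
    · intro y z h
      exact Subtype.ext (F.1.inj _ y.2 _ z.2 i (congrArg Fin.val h))
    · intro k
      obtain ⟨y, hy, hk⟩ := F.1.exists_pt i (n := k.1) (by rw [F.2]; exact k.2)
      exact ⟨⟨y, hy⟩, Fin.ext hk⟩
  let e : (i : Fin (q + 1)) → {y // y ∈ F.1.pts} ≃ Fin N := fun i => Equiv.ofBijective _ (hb i)
  have he : ∀ i y, ((e i y : Fin N) : ℕ) = y.1 i := fun i y => rfl
  refine ⟨fun i => (e i).symm.trans (e 0), ?_⟩
  have hx : ∀ (a : Fin N), rkN (fun i => (e i).symm.trans (e 0)) a = ((e 0).symm a).1 := by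
    intro a
    funext i
    rw [rkN_apply]
    show ((e i ((e 0).symm a) : Fin N) : ℕ) = _
    rw [he]
  apply Subtype.ext
  apply M.ext
  ext y
  rw [mem_mkN]
  constructor
  · rintro ⟨a, rfl⟩
    rw [hx]
    exact ((e 0).symm a).2
  · intro hy
    refine ⟨e 0 ⟨y, hy⟩, ?_⟩
    rw [hx, Equiv.symm_apply_apply]

/-- (B3) -/
theorem mkN_eq_iff {x y : Fin (q + 1) → Equiv.Perm (Fin N)} :
    mkN x = mkN y ↔ ∃ g : Equiv.Perm (Fin N), ∀ i, y i = g * x i := by
  constructor
  · intro h
    refine ⟨y 0 * (x 0)⁻¹, fun i => ?_⟩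
    have key : ∀ a : Fin N, (y i)⁻¹ a = (x i)⁻¹ (x 0 ((y 0)⁻¹ a)) := by
      intro a
      have ha : rkN y a ∈ (mkN x).1.pts := by
        rw [h]; exact mem_mkN.2 ⟨a, rfl⟩
      obtain ⟨b, hb⟩ := mem_mkN.1 ha
      have h0 : (x 0)⁻¹ b = (y 0)⁻¹ a := Fin.ext (congrFun hb 0)
      have hi : (x i)⁻¹ b = (y i)⁻¹ a := Fin.ext (congrFun hb i)
      rw [← h0, perm_apply_inv, hi]
    have key2 : (y i)⁻¹ = (x i)⁻¹ * (x 0 * (y 0)⁻¹) := Equiv.ext key
    have key3 := congrArg (fun g => g⁻¹) key2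
    simpa [mul_inv_rev] using key3
  · rintro ⟨g, hg⟩
    have hr : ∀ a, rkN y a = rkN x (g⁻¹ a) := by
      intro a
      funext i
      rw [rkN_apply, rkN_apply, hg i, mul_inv_rev]
      rfl
    apply Subtype.ext
    apply M.ext
    ext z
    rw [mem_mkN, mem_mkN]
    constructor
    · rintro ⟨a, rfl⟩
      exact ⟨g a, by rw [hr, perm_inv_apply]⟩
    · rintro ⟨a, rfl⟩
      exact ⟨g⁻¹ a, (hr a).symm⟩

/-- left translation does not change the simplex -/
theorem mkN_mul (g : Equiv.Perm (Fin N)) (x : Fin (q + 1) → Equiv.Perm (Fin N)) :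
    mkN (fun i => g * x i) = mkN x := (mkN_eq_iff.2 ⟨g, fun _ => rfl⟩).symm

/-- (B4) -/
theorem mkN_map (θ : Fin (p + 1) →o Fin (q + 1)) (x : Fin (q + 1) → Equiv.Perm (Fin N)) :
    (MN N).map θ (mkN x) = mkN (x ∘ θ) := by
  apply Subtype.ext
  apply M.ext
  show (mkN x).1.pts.image (fun y => y ∘ θ) = (mkN (x ∘ θ)).1.pts
  rw [mkN_pts, mkN_pts, Finset.image_image]
  rfl

/-- the extension of a permutation by the fixed point `0` -/
def upP (e : Equiv.Perm (Fin n)) : Equiv.Perm (Fin (n + 1)) := Equiv.Perm.decomposeFin.symm (0, e)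

@[simp] theorem upP_zero (e : Equiv.Perm (Fin n)) : upP e 0 = 0 :=
  Equiv.Perm.decomposeFin_symm_apply_zero _ _

@[simp] theorem upP_succ (e : Equiv.Perm (Fin n)) (a : Fin n) : upP e a.succ = (e a).succ := by
  rw [upP, Equiv.Perm.decomposeFin_symm_apply_succ]
  simp

@[simp] theorem upP_inv_zero (e : Equiv.Perm (Fin n)) : (upP e)⁻¹ 0 = 0 := by
  rw [Equiv.Perm.inv_eq_iff_eq, upP_zero]

@[simp] theorem upP_inv_succ (e : Equiv.Perm (Fin n)) (a : Fin n) :
    (upP e)⁻¹ a.succ = (e⁻¹ a).succ := by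
  rw [Equiv.Perm.inv_eq_iff_eq, upP_succ, perm_apply_inv]

theorem upP_injective : Function.Injective (upP : Equiv.Perm (Fin n) → _) := by
  intro e f h
  have := Equiv.Perm.decomposeFin.symm.injective h
  exact congrArg Prod.snd this

theorem exists_upP {g : Equiv.Perm (Fin (n + 1))} (h : g 0 = 0) :
    ∃ e : Equiv.Perm (Fin n), upP e = g := by
  obtain ⟨⟨k, e⟩, rfl⟩ := Equiv.Perm.decomposeFin.symm.surjective g
  rw [Equiv.Perm.decomposeFin_symm_apply_zero] at h
  subst h
  exact ⟨e, rfl⟩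

/-- left multiplication by `τ` on tuples -/
theorem sN_mkN (x : Fin (q + 1) → Equiv.Perm (Fin n)) :
    (sN n).app (mkN x) = mkN (fun i => upP (x i)) := by
  apply Subtype.ext
  apply M.ext
  show (M.tau q * (mkN x).1).pts = _
  ext y
  rw [M.mem_mul, mem_mkN]
  constructor
  · rintro (h | ⟨z, hz, rfl⟩)
    · rw [M.tau_pts, Finset.mem_singleton] at h
      refine ⟨0, ?_⟩
      rw [h]
      funext i
      rw [rkN_apply, upP_inv_zero]
      rfl
    · obtain ⟨a, rfl⟩ := mem_mkN.1 hz
      refine ⟨a.succ, ?_⟩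
      funext i
      rw [rkN_apply, upP_inv_succ, M.sh_apply, M.deg_tau, rkN_apply, Fin.val_succ]
  · rintro ⟨a, rfl⟩
    rcases Fin.eq_zero_or_eq_succ a with rfl | ⟨b, rfl⟩
    · left
      rw [M.tau_pts, Finset.mem_singleton]
      funext i
      rw [rkN_apply, upP_inv_zero]
      rfl
    · right
      refine ⟨rkN x b, mem_mkN.2 ⟨b, rfl⟩, ?_⟩
      funext i
      rw [M.sh_apply, M.deg_tau, rkN_apply, rkN_apply, upP_inv_succ, Fin.val_succ]

/-- (B5), first half -/
theorem exists_sN_of_fix {x : Fin (q + 1) → Equiv.Perm (Fin (n + 1))} (h : ∀ i, x i 0 = 0) :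
    ∃ F' : (MN n).obj q, (sN n).app F' = mkN x := by
  choose e he using fun i => exists_upP (h i)
  refine ⟨mkN e, ?_⟩
  rw [sN_mkN]
  congr 1
  funext i
  exact he i

/-- (B5), second half -/
theorem exists_fix_of_sN (F' : (MN n).obj q) :
    ∃ x : Fin (q + 1) → Equiv.Perm (Fin (n + 1)), (∀ i, x i 0 = 0) ∧ mkN x = (sN n).app F' := by
  obtain ⟨e, rfl⟩ := mkN_surj F'
  exact ⟨fun i => upP (e i), fun i => upP_zero _, (sN_mkN e).symm⟩

/-- a simplex is in the image of `sN n` if and only if the first element is the same for all the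
orders -/
theorem mkN_mem_sN_iff (x : Fin (q + 1) → Equiv.Perm (Fin (n + 1))) :
    (∃ F' : (MN n).obj q, (sN n).app F' = mkN x) ↔ ∀ i, x i 0 = x 0 0 := by
  constructor
  · rintro ⟨F', h⟩
    obtain ⟨y, hy, hy'⟩ := exists_fix_of_sN F'
    rw [h] at hy'
    obtain ⟨g, hg⟩ := mkN_eq_iff.1 hy'
    intro i
    rw [hg i, hg 0, Equiv.Perm.mul_apply, Equiv.Perm.mul_apply, hy i, hy 0]
  · intro h
    obtain ⟨F', hF'⟩ := exists_sN_of_fix (x := fun i => Equiv.swap 0 (x 0 0) * x i) (by
      intro i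
      rw [Equiv.Perm.mul_apply, h i, Equiv.swap_apply_right])
    exact ⟨F', hF'.trans (mkN_mul _ _)⟩

end MkN

/-! ### the differential of lists and tuples -/

section dL

universe u
variable {A : Type u}

theorem dL_ofFn_range_aux : ∀ (n : ℕ) (ψ : List A → F2) (x : Fin (n + 1) → A),
    dL ψ (List.ofFn x) = ∑ i ∈ Finset.range (n + 1),
      ψ (List.ofFn (fun k : Fin n => x ⟨if k.1 < i then k.1 else k.1 + 1, by
        have := k.2; split_ifs <;> omega⟩))
  | 0, ψ, x => by
      rw [List.ofFn_succ, dL_cons]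
      simp
  | n + 1, ψ, x => by
      rw [List.ofFn_succ, dL_cons, dL_ofFn_range_aux n, Finset.sum_range_succ' _ (n + 1), add_comm]
      refine congrArg₂ (· + ·) (Finset.sum_congr rfl fun i _ => ?_) ?_
      · rw [List.ofFn_succ]
        refine congrArg ψ (congrArg₂ List.cons ?_ (congrArg List.ofFn ?_))
        · refine congrArg x (Fin.ext ?_)
          simp
        · funext k
          refine congrArg x (Fin.ext ?_)
          simp only [Fin.val_succ]
          split_ifs <;> omega
      · refine congrArg ψ (congrArg List.ofFn ?_)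
        funext k
        refine congrArg x (Fin.ext ?_)
        simp

/-- (B6) the differential of a list is the alternating sum over the cofaces -/
theorem dL_ofFn_range {q : ℕ} (ψ : List A → F2) (x : Fin (q + 2) → A) :
    dL ψ (List.ofFn x) = ∑ i ∈ Finset.range (q + 2), ψ (List.ofFn (x ∘ dl q i)) :=
  dL_ofFn_range_aux (q + 1) ψ x

end dL

end Vale.Agent.P263.HS
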