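import Vale.Agent.P263.HS.Main

/-!
# P263, block HS (helper310): relative form of homological stability, for lists
-/

namespace Vale.Agent.P263.HS

universe u v

theorem exists_extG {G : Type u} [Group G] (K : Subgroup G) (P : List K → F2)
    (hP : ∀ (k : K) (l : List K), P (l.map (k * ·)) = P l) (h0 : P [] = 0) :
    ∃ Q : List G → F2, (∀ (g : G) (l : List G), Q (l.map (g * ·)) = Q l) ∧ Q [] = 0 ∧
      ∀ l : List K, Q (l.map fun k : K => (k : G)) = P l := by
  classical
  let N : List G → F2 := fun m => if h : ∃ l' : List K, l'.map (fun k : K => (k : G)) = m then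
    P h.choose else 0
  refine ⟨fun l => match l with
    | [] => 0
    | s :: t => N ((s :: t).map (s⁻¹ * ·)), fun g l => ?_, rfl, fun l => ?_⟩
  · match l with
    | [] => rfl
    | s :: t =>
      show N (((g * s) :: t.map (g * ·)).map ((g * s)⁻¹ * ·)) = N ((s :: t).map (s⁻¹ * ·))
      congr 1
      rw [List.map_cons, List.map_cons, List.map_map]
      congr 1
      · rw [inv_mul_cancel, inv_mul_cancel]
      · apply List.map_congr_left
        intro x _
        simp only [Function.comp]
        rw [mul_inv_rev, mul_assoc, inv_mul_cancel_left]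
  · match l with
    | [] => exact h0.symm
    | k :: t =>
      show N ((((k : G)) :: t.map (fun k : K => (k : G))).map ((k : G)⁻¹ * ·)) = P (k :: t)
      have e : (((k : G)) :: t.map (fun k : K => (k : G))).map ((k : G)⁻¹ * ·) =
          ((k :: t).map (k⁻¹ * ·)).map (fun k : K => (k : G)) := by
        rw [← List.map_cons (f := fun k : K => (k : G)), List.map_map, List.map_map]
        rfl
      have hex : ∃ l' : List K, l'.map (fun k : K => (k : G)) =
          (((k : G)) :: t.map (fun k : K => (k : G))).map ((k : G)⁻¹ * ·) := ⟨_, e.symm⟩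
      show dite _ _ _ = _
      rw [dif_pos hex]
      have h1 := hex.choose_spec.trans e
      have h2 : hex.choose = (k :: t).map (k⁻¹ * ·) :=
        List.map_injective_iff.2 Subtype.val_injective h1
      rw [h2, hP]

variable {G : Type u} [Group G] {A : Type v} [MulAction G A] [Fintype A]

/-- **Stability, relative form**: `H^q(G, K) = 0` for `2 q < card A`, where `G` is the group of
permutations of `A` and `K` the stabiliser of a point. -/
theorem rel_stab (hb : Function.Bijective (MulAction.toPerm : G → Equiv.Perm A)) (a : A) {q : ℕ}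
    (hq : 2 * q < Fintype.card A) (f : List G → F2)
    (hf : ∀ (g : G) (l : List G), f (l.map (g * ·)) = f l)
    (hc : ∀ l : List G, l.length = q + 2 → dL f l = 0)
    (h0 : ∀ l : List G, l.length = q + 1 → (∀ s ∈ l, s • a = a) → f l = 0) :
    ∃ u : List G → F2, (∀ (g : G) (l : List G), u (l.map (g * ·)) = u l) ∧ u [] = 0 ∧
      (∀ l : List G, l.length = q → (∀ s ∈ l, s • a = a) → u l = 0) ∧
      ∀ l : List G, l.length = q + 1 → f l = dL u l := by
  classical
  have ha : Good 1 [a] := ⟨List.nodup_singleton _, rfl⟩
  have hK : ∀ (l : List (Kg G [a])), ∀ s ∈ l.map (fun k : Kg G [a] => (k : G)), s • a = a := by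
    intro l s hs
    obtain ⟨k, _, rfl⟩ := List.mem_map.1 hs
    exact k.2 a (by simp)
  -- injectivity
  have hfe : Eqv (A := A) fun l _ => f l := fun g l _ => hf g l
  have hinj := injE_of_RR (RR_all q G A hb 0 (by omega))
  obtain ⟨e, hee, hen, hec⟩ := hinj (fun l _ => f l) hfe (fun l w hl _ => hc l (by omega)) (by
    refine ⟨PP [a] 1 fun l _ => f l, PP_eqv hb ha hfe, PP_nil _ _ _, fun l w hl hw => ?_⟩
    have h1 := PP_eq hb ha hfe (L := q + 1) (fun l w hl _ => hc l (by omega)) l w hl hw
    rw [h0 _ (by unfold kap; rw [List.length_map, List.length_map, hl]) (hK _), zero_add] at h1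
    rw [← h1]
    obtain ⟨b, rfl⟩ := good_one hw
    unfold dh
    rw [dL_cons]
    exact add_zero _)
  -- the first primitive
  have hu0 : ∀ (g : G) (l : List G), e (l.map (g * ·)) [] = e l [] := fun g l => hee g l []
  have hu0f : ∀ l : List G, l.length = q + 1 → f l = dL (fun l => e l []) l := fun l hl =>
    hec l [] hl (good_zero.2 rfl)
  cases q with
  | zero =>
    refine ⟨fun l => e l [], hu0, hen [], fun l hl _ => ?_, hu0f⟩
    rw [List.length_eq_zero_iff.1 hl]
    exact hen []
  | succ q =>
  -- the function of the stabiliser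
  set F : List (Kg G [a]) → F2 := fun l => e (l.map fun k : Kg G [a] => (k : G)) [] with hF
  have hFi : ∀ (k : Kg G [a]) (l : List (Kg G [a])), F (l.map (k * ·)) = F l := by
    intro k l
    rw [hF]
    simp only
    rw [← hu0 (k : G) (l.map fun k : Kg G [a] => (k : G)), List.map_map, List.map_map]
    rfl
  have hFc : ∀ l : List (Kg G [a]), l.length = q + 2 → dL F l = 0 := by
    intro l hl
    have h1 := hu0f (l.map fun k : Kg G [a] => (k : G)) (by rw [List.length_map, hl])
    rw [h0 _ (by rw [List.length_map, hl]) (hK l), dL_map] at h1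
    exact h1.symm
  have hFn : F [] = 0 := hen []
  have : Nonempty A := ⟨a⟩
  have hsur := surE_of_RR hb (RR_all q G A hb 1 (by omega))
  have hFe : Eqv (A := Rest [a]) fun l _ => F l := fun k l _ => hFi k l
  obtain ⟨c, h, hce, hcc, hhe, hhn, hh⟩ := hsur (ext [a] 1 fun l _ => F l) (ext_eqv hb ha hFe) (by
    intro l w hl hw
    rw [dv_ext _ _ _ _ _ hw]
    exact hFc _ (by unfold kap; rw [List.length_map, hl]))
  -- the comparison of the two copies of the stabiliser
  have htr : (tr [a] [a] : G) ∈ Kg G [a] := by
    intro b hb'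
    obtain rfl : b = a := by simpa using hb'
    have := tr_map hb ha ha
    simpa using this
  set ρ : Kg G [a] → Kg G [a] := fun k => ⟨tr [a] [a], htr⟩ * ret [a] ((tr [a] [a] : G)⁻¹ * k)
    with hρ
  have hρm : ∀ k s, ρ (k * s) = k * ρ s := by
    intro k s
    apply Subtype.ext
    have := rho_map hb ha ha (k : G) (s : G)
    rw [map_fix k.2] at this
    exact this
  have hFρ : ∀ l : List (Kg G [a]), F (kap [a] (l.map fun k : Kg G [a] => (k : G)) [a]) =
      F (l.map ρ) := by
    intro l
    rw [← hFi ⟨tr [a] [a], htr⟩]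
    unfold kap
    rw [List.map_map, List.map_map]
    rfl
  have hpr : ∀ l : List (Kg G [a]), l.length = q + 1 →
      dL (prism ρ F) l = F l + F (l.map ρ) := by
    intro l hl
    have h1 := prism_eq ρ F l
    have h2 : prism ρ (dL F) l = 0 := by
      rw [← prism_zero ρ l]
      exact prism_congr _ fun v hv => hFc v (by omega)
    rwa [h2, add_zero] at h1
  obtain ⟨Q, hQi, hQn, hQP⟩ := exists_extG (Kg G [a])
    (fun l => h (l.map fun k : Kg G [a] => (k : G)) [a] + prism ρ F l) (by
      intro k l
      congr 1
      · have := hhe (k : G) (l.map fun k : Kg G [a] => (k : G)) [a]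
        rw [map_fix k.2] at this
        rw [← this, List.map_map, List.map_map]
        rfl
      · rw [prism_map (k * ·) ρ ρ (fun s => hρm k s)]
        exact prism_congr _ fun v _ => hFi k v) (by
      show h [] [a] + 0 = 0
      rw [hhn, add_zero])
  refine ⟨fun l => if l = [] then 0 else (e l [] + c l []) + dL Q l, fun g l => ?_, if_pos rfl,
    fun l hl hla => ?_, fun l hl => ?_⟩
  · simp only [List.map_eq_nil_iff]
    split_ifs
    · rfl
    · rw [hu0, dL_map]
      have h1 := hce g l []
      rw [List.map_nil] at h1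
      rw [h1]
      congr 2
      funext v
      exact hQi g v
  · have hl0 : l ≠ [] := by rintro rfl; simp at hl
    refine (if_neg hl0).trans ?_
    have hmem : ∀ s ∈ l, s ∈ Kg G [a] := fun s hs b hb' => by
      obtain rfl : b = a := by simpa using hb'
      exact hla s hs
    obtain ⟨l', rfl⟩ : ∃ l' : List (Kg G [a]), l'.map (fun k : Kg G [a] => (k : G)) = l := by
      refine ⟨l.pmap (fun s hs => (⟨s, hs⟩ : Kg G [a])) hmem, ?_⟩
      rw [List.map_pmap]
      simp
    rw [List.length_map] at hl
    have e1 : dL Q (l'.map fun k : Kg G [a] => (k : G)) =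
        dL (fun l => h (l.map fun k : Kg G [a] => (k : G)) [a]) l' + dL (prism ρ F) l' := by
      rw [dL_map, ← dL_add]
      congr 1
      funext v
      exact hQP v
    have e2 := hh (l'.map fun k : Kg G [a] => (k : G)) [a] (by rw [List.length_map, hl]) ha
    have e3 : ext [a] 1 (fun l _ => F l) (l'.map fun k : Kg G [a] => (k : G)) [a] =
        F (l'.map ρ) := (if_pos ha).trans (hFρ l')
    have e4 : dh c (l'.map fun k : Kg G [a] => (k : G)) [a] =
        c (l'.map fun k : Kg G [a] => (k : G)) [] := by
      unfold dh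
      rw [dL_cons]
      exact add_zero _
    have e5 : dv h (l'.map fun k : Kg G [a] => (k : G)) [a] =
        dL (fun l => h (l.map fun k : Kg G [a] => (k : G)) [a]) l' := by
      unfold dv
      rw [dL_map]
    rw [e3, e4, e5] at e2
    rw [e1, hpr l' hl]
    have e6 : e (l'.map fun k : Kg G [a] => (k : G)) [] = F l' := rfl
    rw [e6]
    have s1 := CharTwo.add_self_eq_zero (F l')
    have s2 := CharTwo.add_self_eq_zero (F (l'.map ρ))
    linear_combination s1 - e2 + s2
  · have h1 : dL (fun l => if l = [] then 0 else (e l [] + c l []) + dL Q l) l =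
        dL (fun l => (e l [] + c l []) + dL Q l) l :=
      dL_congr fun v hv _ => if_neg (by rintro rfl; simp at hv; omega)
    rw [h1, dL_add, dL_add, dL_dL, ← hu0f l hl]
    have h2 : dL (fun l => c l []) l = 0 := hcc l [] hl (good_zero.2 rfl)
    rw [h2, add_zero, add_zero]

end Vale.Agent.P263.HS
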