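import Vale.Agent.P263.HS.Dbl

/-!
# P263, block HS (helper310): reduction to the stabiliser of a word (Shapiro's lemma)
-/

namespace Vale.Agent.P263.HS

universe u v

open Classical in
section
variable {G : Type u} [Group G] {A : Type v} [MulAction G A]

/-- The pointwise stabiliser of a word. -/
def Kg (G : Type u) [Group G] {A : Type v} [MulAction G A] (w0 : List A) : Subgroup G where
  carrier := {g | ∀ a ∈ w0, g • a = a}
  mul_mem' := by
    intro g h hg hh a ha
    rw [mul_smul, hh a ha, hg a ha]
  one_mem' := fun a _ => one_smul _ _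
  inv_mem' := by
    intro g hg a ha
    rw [inv_smul_eq_iff, hg a ha]

/-- The remaining letters. -/
def Rest {A : Type v} (w0 : List A) : Type v := {a : A // a ∉ w0}

instance (w0 : List A) : MulAction (Kg G w0) (Rest w0) where
  smul k a := ⟨(k : G) • a.1, fun h => a.2 (by
    have h2 : (k : G) • ((k : G) • a.1) = (k : G) • a.1 := k.2 _ h
    have h3 := smul_left_cancel _ h2
    rwa [h3] at h)⟩
  one_smul a := Subtype.ext (one_smul G a.1)
  mul_smul k k' a := Subtype.ext (mul_smul (k : G) (k' : G) a.1)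

theorem coe_smul (w0 : List A) (k : Kg G w0) (a : Rest w0) :
    ((k • a : Rest w0) : {a : A // a ∉ w0}).1 = (k : G) • a.1 := rfl

noncomputable instance (w0 : List A) [Fintype A] : Fintype (Rest w0) :=
  inferInstanceAs (Fintype {a : A // a ∉ w0})

theorem card_rest [Fintype A] {p : ℕ} {w0 : List A} (h : Good p w0) :
    Fintype.card (Rest w0) = Fintype.card A - p := by
  have h1 : Fintype.card (Rest w0) = Fintype.card {a : A // a ∉ w0} := rfl
  rw [h1]
  have h2 := Fintype.card_subtype_compl (fun a : A => a ∈ w0)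
  rw [h2]
  congr 1
  have h3 : Fintype.card {a : A // a ∈ w0} = w0.toFinset.card := by
    rw [← Fintype.card_coe]
    exact Fintype.card_congr (Equiv.subtypeEquivRight fun a => by simp)
  rw [h3, List.toFinset_card_of_nodup h.1, h.2]

theorem map_fix {w0 : List A} {g : G} (hg : g ∈ Kg G w0) : w0.map (g • ·) = w0 := by
  conv_rhs => rw [← List.map_id w0]
  exact List.map_congr_left fun a ha => hg a ha

variable (hb : Function.Bijective (MulAction.toPerm : G → Equiv.Perm A))

include hb in
theorem Kg_bij (w0 : List A) :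
    Function.Bijective (MulAction.toPerm : Kg G w0 → Equiv.Perm (Rest w0)) := by
  constructor
  · intro k k' h
    apply Subtype.ext
    apply hb.1
    apply Equiv.ext
    intro a
    show (k : G) • a = (k' : G) • a
    by_cases ha : a ∈ w0
    · rw [k.2 a ha, k'.2 a ha]
    · have := congrArg (fun e : Equiv.Perm (Rest w0) => (e (⟨a, ha⟩ : {a : A // a ∉ w0})).1) h
      exact this
  · intro σ
    let τ : Equiv.Perm A := Equiv.Perm.ofSubtype (p := fun a : A => a ∉ w0) σ
    obtain ⟨g, hg⟩ := hb.2 τ
    have hg' : ∀ a, g • a = τ a := fun a => congrArg (fun e : Equiv.Perm A => e a) hg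
    refine ⟨⟨g, fun a ha => ?_⟩, ?_⟩
    · rw [hg']
      exact Equiv.Perm.ofSubtype_apply_of_not_mem σ (not_not.2 ha)
    · apply Equiv.ext
      intro a
      apply Subtype.ext
      show g • a.1 = (σ a).1
      rw [hg']
      exact Equiv.Perm.ofSubtype_apply_coe σ a

include hb in
/-- Transitivity on injective words. -/
theorem exists_map_eq : ∀ (w0 w : List A), w0.Nodup → w.Nodup → w0.length = w.length →
    ∃ g : G, w0.map (g • ·) = w
  | [], [], _, _, _ => ⟨1, rfl⟩
  | [], _ :: _, _, _, h => by simp at h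
  | _ :: _, [], _, _, h => by simp at h
  | x :: t, y :: s, h1, h2, h => by
    rw [List.nodup_cons] at h1 h2
    obtain ⟨g, hg⟩ := exists_map_eq t s h1.2 h2.2 (by simpa using h)
    refine ⟨sw hb (g • x) y * g, ?_⟩
    rw [List.map_cons]
    congr 1
    · rw [mul_smul, sw_smul, Equiv.swap_apply_left]
    · conv_rhs => rw [← hg]
      apply List.map_congr_left
      intro z hz
      rw [mul_smul, sw_smul]
      refine Equiv.swap_apply_of_ne_of_ne ?_ ?_
      · intro h
        have := smul_left_cancel _ h
        exact h1.1 (this ▸ hz)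
      · intro h
        apply h2.1
        rw [← h, ← hg]
        exact List.mem_map_of_mem (f := (g • ·)) hz

/-- An equivariant map `G → K`. -/
noncomputable def ret (w0 : List A) (g : G) : Kg G w0 :=
  ⟨g * (Quotient.out (Quotient.mk (QuotientGroup.rightRel (Kg G w0)) g))⁻¹, by
    have h := Quotient.mk_out (s := QuotientGroup.rightRel (Kg G w0)) g
    exact QuotientGroup.rightRel_apply.1 h⟩

theorem ret_mul (w0 : List A) (k : Kg G w0) (g : G) : ret w0 ((k : G) * g) = k * ret w0 g := by
  apply Subtype.ext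
  show (k : G) * g * _ = (k : G) * (g * _)
  have h : Quotient.mk (QuotientGroup.rightRel (Kg G w0)) ((k : G) * g) =
      Quotient.mk (QuotientGroup.rightRel (Kg G w0)) g := by
    apply Quotient.sound
    show (QuotientGroup.rightRel (Kg G w0)) _ _
    rw [QuotientGroup.rightRel_apply, mul_inv_rev, ← mul_assoc, mul_inv_cancel, one_mul]
    exact (Kg G w0).inv_mem k.2
  rw [h, mul_assoc]

/-- The transporter of `w0` to `w`. -/
noncomputable def tr (w0 w : List A) : G :=
  if h : ∃ g : G, w0.map (g • ·) = w then h.choose else 1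

include hb in
theorem tr_map {p : ℕ} {w0 w : List A} (h0 : Good p w0) (hw : Good p w) :
    w0.map ((tr w0 w : G) • ·) = w := by
  have h := exists_map_eq hb w0 w h0.1 hw.1 (by rw [h0.2, hw.2])
  rw [tr, dif_pos h]
  exact h.choose_spec

theorem map_inv_of {w0 w : List A} {g : G} (h : w0.map (g • ·) = w) :
    w.map (g⁻¹ • ·) = w0 := by
  rw [← h, List.map_map]
  conv_rhs => rw [← List.map_id w0]
  apply List.map_congr_left
  intro a _
  simp

include hb in
/-- The element of `K` comparing transporters. -/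
theorem exists_k {p : ℕ} {w0 w : List A} (h0 : Good p w0) (hw : Good p w) (g : G) :
    ∃ k : Kg G w0, (tr w0 (w.map (g • ·)) : G)⁻¹ * g = k * (tr w0 w)⁻¹ := by
  refine ⟨⟨(tr w0 (w.map (g • ·)) : G)⁻¹ * g * tr w0 w, fun a ha => ?_⟩, by
    show _ = _ * _ * _ * _
    rw [mul_assoc ((tr w0 (w.map (g • ·)) : G)⁻¹ * g), mul_inv_cancel, mul_one]⟩
  have h1 : w0.map (((tr w0 (w.map (g • ·)) : G)⁻¹ * g * tr w0 w) • ·) = w0 := by
    have e : (fun a : A => ((tr w0 (w.map (g • ·)) : G)⁻¹ * g * tr w0 w) • a) =
        (fun a : A => (tr w0 (w.map (g • ·)) : G)⁻¹ • a) ∘ (fun a : A => g • a) ∘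
          (fun a : A => (tr w0 w : G) • a) := by
      funext a; simp [mul_smul]
    rw [e, ← List.map_map, ← List.map_map, tr_map hb h0 hw]
    exact map_inv_of (tr_map hb h0 (hw.map g))
  obtain ⟨n, hn, rfl⟩ := List.getElem_of_mem ha
  have h2 : (w0.map (((tr w0 (w.map (g • ·)) : G)⁻¹ * g * tr w0 w) • ·))[n]'(by
      rw [List.length_map]; exact hn) = w0[n] := by
    simp only [h1]
  rw [List.getElem_map] at h2
  exact h2

/-- The list of `K` associated with a list of `G` and a word. -/
noncomputable def kap (w0 : List A) (l : List G) (w : List A) : List (Kg G w0) :=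
  l.map fun s => ret w0 ((tr w0 w : G)⁻¹ * s)

include hb in
theorem kap_map {p : ℕ} {w0 w : List A} (h0 : Good p w0) (hw : Good p w) (g : G) (l : List G) :
    ∃ k : Kg G w0, (tr w0 (w.map (g • ·)) : G)⁻¹ * g = k * (tr w0 w)⁻¹ ∧
      kap w0 (l.map (g * ·)) (w.map (g • ·)) = (kap w0 l w).map (k * ·) := by
  obtain ⟨k, hk⟩ := exists_k hb h0 hw g
  refine ⟨k, hk, ?_⟩
  unfold kap
  rw [List.map_map, List.map_map]
  apply List.map_congr_left
  intro s _
  show ret w0 (_ * (g * s)) = k * ret w0 (_ * s)
  rw [← mul_assoc, hk, mul_assoc, ret_mul]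

/-- The self-map of `G` used in the prism. -/
noncomputable def rho (w0 w : List A) (s : G) : G :=
  tr w0 w * (ret w0 ((tr w0 w : G)⁻¹ * s) : G)

include hb in
theorem rho_map {p : ℕ} {w0 w : List A} (h0 : Good p w0) (hw : Good p w) (g s : G) :
    rho w0 (w.map (g • ·)) (g * s) = g * rho w0 w s := by
  obtain ⟨k, hk⟩ := exists_k hb h0 hw g
  unfold rho
  rw [← mul_assoc _ g s, hk, mul_assoc (k : G), ret_mul]
  have : (tr w0 (w.map (g • ·)) : G) * k = g * tr w0 w := by
    have hk' := (eq_mul_inv_iff_mul_eq.1 hk)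
    rw [← hk', mul_assoc, mul_inv_cancel_left]
  show (tr w0 (w.map (g • ·)) : G) * ((k : G) * _) = _
  rw [← mul_assoc, this, mul_assoc]

theorem map_rho (w0 : List A) (l : List G) (w : List A) :
    l.map (rho w0 w) = ((kap w0 l w).map (fun k : Kg G w0 => (k : G))).map
      ((tr w0 w : G) * ·) := by
  unfold kap
  rw [List.map_map, List.map_map]
  rfl

end

end Vale.Agent.P263.HS
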